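import Crest.Agent.R322.Tube

set_option autoImplicit false

namespace Crest.Agent.R322

open MeasureTheory ProbabilityTheory Metric
open scoped ENNReal NNReal RealInnerProductSpace

variable {E : Type*} [NormedAddCommGroup E] [InnerProductSpace ℝ E] [FiniteDimensional ℝ E]
  [MeasurableSpace E] [BorelSpace E]

/-- law of a block of `k` samples -/
noncomputable abbrev gpi (E : Type*) [NormedAddCommGroup E] [InnerProductSpace ℝ E]
    [FiniteDimensional ℝ E] [MeasurableSpace E] (k : ℕ) : Measure (Fin k → E) :=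
  Measure.pi fun _ : Fin k => stdGaussian E

/-- points whose measurements are `η`-close to those of `θ₀` -/
def Slab {k : ℕ} (η : ℝ) (X : Fin k → E) (θ₀ : E) : Set E := {θ | ∀ l, |⟪X l, θ - θ₀⟫| ≤ η}

lemma measurableSet_slab3 {k : ℕ} (η : ℝ) :
    MeasurableSet {p : ((Fin k → E) × E) × E | p.2 ∈ Slab η p.1.1 p.1.2} := by
  have : {p : ((Fin k → E) × E) × E | p.2 ∈ Slab η p.1.1 p.1.2} =
      ⋂ l, {p : ((Fin k → E) × E) × E | |⟪p.1.1 l, p.2 - p.1.2⟫| ≤ η} := by
    ext p; simp [Slab]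
  rw [this]
  exact MeasurableSet.iInter fun l => measurableSet_le (by fun_prop) (by fun_prop)

lemma measurable_slab_measure {k : ℕ} (η : ℝ) (ν : Measure E) [SFinite ν] :
    Measurable fun p : (Fin k → E) × E => ν (Slab η p.1 p.2) :=
  measurable_measure_prodMk_left (measurableSet_slab3 η)

lemma measurableSet_slab {k : ℕ} (η : ℝ) (X : Fin k → E) (θ₀ : E) :
    MeasurableSet (Slab η X θ₀) :=
  (measurableSet_slab3 η).preimage (f := fun θ => ((X, θ₀), θ)) (by fun_prop)

lemma Frost.slab_moment {μ : Measure E} [IsFiniteMeasure μ] {x₁ : E} {r₁ : ℝ} {q : ℕ}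
    (h : Frost μ x₁ r₁ q) (hq : 1 ≤ q) (θ₀ : E) (τ : ℝ) (hτ : 0 < τ) (hτ1 : τ ≤ 1) (G : Set E)
    (hG : μ G ≤ ENNReal.ofReal (τ ^ (2 * q))) (η : ℝ) (hη : 0 < η) (n : ℕ) :
    ∀ (V : Submodule ℝ E) (A : Set E), Module.finrank ℝ V + n ≤ q → MeasurableSet A → Cyl V A →
    ∫⁻ X in Set.univ.pi (fun _ : Fin q => A), (μ.restrict G) (Slab η X θ₀) ^ n ∂gpi E q ≤
      stdGaussian E A ^ q * ENNReal.ofReal ((240 * τ * η / r₁) ^ q) ^ n := by
  induction n with
  | zero =>
    intro V A _ hA _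
    simp [Measure.pi_pi]
  | succ n ih =>
    intro V A hV hA hc
    have hm : Measurable fun X : Fin q → E => (μ.restrict G) (Slab η X θ₀) :=
      (measurable_slab_measure η (μ.restrict G)).comp (f := fun X => (X, θ₀)) (by fun_prop)
    have hpiA : MeasurableSet (Set.univ.pi (fun _ : Fin q => A)) :=
      MeasurableSet.univ_pi fun _ => hA
    set W : Set ((Fin q → E) × E) := {p | p.1 ∈ Set.univ.pi (fun _ : Fin q => A) ∧
      p.2 ∈ Slab η p.1 θ₀} with hW
    have hWm : MeasurableSet W := by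
      refine (hpiA.preimage measurable_fst).inter ?_
      exact (measurableSet_slab3 η).preimage
        (f := fun p : (Fin q → E) × E => ((p.1, θ₀), p.2)) (by fun_prop)
    have h1 : ∫⁻ X in Set.univ.pi (fun _ : Fin q => A),
          (μ.restrict G) (Slab η X θ₀) ^ (n + 1) ∂gpi E q =
        ∫⁻ X, ∫⁻ θ, W.indicator (fun p => (μ.restrict G) (Slab η p.1 θ₀) ^ n) (X, θ)
          ∂(μ.restrict G) ∂gpi E q := by
      rw [← lintegral_indicator hpiA]
      congr 1
      ext X
      by_cases hX : X ∈ Set.univ.pi (fun _ : Fin q => A)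
      · rw [Set.indicator_of_mem hX, pow_succ,
          ← lintegral_indicator_const (measurableSet_slab η X θ₀)]
        congr 1
        ext θ
        by_cases hθ : θ ∈ Slab η X θ₀
        · rw [Set.indicator_of_mem hθ, Set.indicator_of_mem (show (X, θ) ∈ W from ⟨hX, hθ⟩)]
        · rw [Set.indicator_of_notMem hθ,
            Set.indicator_of_notMem (show (X, θ) ∉ W from fun h => hθ h.2)]
      · rw [Set.indicator_of_notMem hX]
        symm
        rw [← lintegral_zero (μ := μ.restrict G)]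
        congr 1
        ext θ
        rw [Set.indicator_of_notMem (show (X, θ) ∉ W from fun h => hX h.1)]
    have hmm : Measurable (W.indicator (fun p => (μ.restrict G) (Slab η p.1 θ₀) ^ n)) :=
      ((hm.pow_const n).comp measurable_fst).indicator hWm
    rw [h1, lintegral_lintegral_swap
      (f := fun X θ => W.indicator (fun p => (μ.restrict G) (Slab η p.1 θ₀) ^ n) (X, θ))
      hmm.aemeasurable]
    have h2 : ∀ θ, ∫⁻ X, W.indicator (fun p => (μ.restrict G) (Slab η p.1 θ₀) ^ n) (X, θ)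
        ∂gpi E q ≤ stdGaussian E (A ∩ {x | |⟪x, θ - θ₀⟫| ≤ η}) ^ q *
          ENNReal.ofReal ((240 * τ * η / r₁) ^ q) ^ n := by
      intro θ
      have hA' : MeasurableSet (A ∩ {x : E | |⟪x, θ - θ₀⟫| ≤ η}) :=
        hA.inter (measurableSet_le (by fun_prop) (by fun_prop))
      refine le_trans (le_of_eq ?_) (ih (V ⊔ Submodule.span ℝ {θ - θ₀}) _ ?_ hA' ?_)
      · rw [← lintegral_indicator (MeasurableSet.univ_pi fun _ => hA')]
        congr 1
        ext X
        by_cases hX : (X, θ) ∈ W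
        · rw [Set.indicator_of_mem hX, Set.indicator_of_mem]
          intro l _
          exact ⟨hX.1 l trivial, hX.2 l⟩
        · rw [Set.indicator_of_notMem hX, Set.indicator_of_notMem]
          intro h'
          exact hX ⟨fun l _ => (h' l trivial).1, fun l => (h' l trivial).2⟩
      · have h3 := Submodule.finrank_add_le_finrank_add_finrank V (Submodule.span ℝ {θ - θ₀})
        have h4 : Module.finrank ℝ (Submodule.span ℝ {θ - θ₀}) ≤ 1 := by
          simpa using finrank_span_le_card (R := ℝ) ({θ - θ₀} : Set E)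
        omega
      · intro x hx w hw
        rw [← Submodule.inf_orthogonal] at hw
        refine ⟨hc x hx.1 w hw.1, ?_⟩
        have h5 : ⟪w, θ - θ₀⟫ = 0 := by
          rw [real_inner_comm]
          exact (Submodule.mem_orthogonal _ w).1 hw.2 _ (Submodule.mem_span_singleton_self _)
        have := hx.2
        simp only [Set.mem_ofPred_eq] at this ⊢
        rwa [inner_add_left, h5, add_zero]
    calc _ ≤ ∫⁻ θ in G, stdGaussian E (A ∩ {x | |⟪x, θ - θ₀⟫| ≤ η}) ^ q *
          ENNReal.ofReal ((240 * τ * η / r₁) ^ q) ^ n ∂μ := lintegral_mono h2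
      _ = (∫⁻ θ in G, stdGaussian E (A ∩ {x | |⟪x, θ - θ₀⟫| ≤ η}) ^ q ∂μ) *
          ENNReal.ofReal ((240 * τ * η / r₁) ^ q) ^ n :=
          lintegral_mul_const' _ _ (ENNReal.pow_ne_top ENNReal.ofReal_ne_top)
      _ ≤ (stdGaussian E A ^ q * ENNReal.ofReal ((240 * τ * η / r₁) ^ q)) *
          ENNReal.ofReal ((240 * τ * η / r₁) ^ q) ^ n := by
          gcongr
          exact h.slab_integral hq V (by omega) θ₀ τ hτ hτ1 G hG A hA hc η hη
      _ = _ := by ring

/-- good cells: integer points of an `ℓ¹` ball -/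
noncomputable def goodCells (k L : ℕ) : Finset (Fin k → ℤ) :=
  (Fintype.piFinset fun _ : Fin k => Finset.Icc (-(L * k : ℕ) : ℤ) (L * k : ℕ)).filter
    fun c => ∑ l, (c l).natAbs ≤ L * k

lemma mem_goodCells {k L : ℕ} {c : Fin k → ℤ} (h : ∑ l, (c l).natAbs ≤ L * k) :
    c ∈ goodCells k L := by
  simp only [goodCells, Finset.mem_filter, Fintype.mem_piFinset, Finset.mem_Icc]
  refine ⟨fun l => ?_, h⟩
  have : (c l).natAbs ≤ L * k :=
    (Finset.single_le_sum (f := fun l => (c l).natAbs) (fun _ _ => Nat.zero_le _)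
      (Finset.mem_univ l)).trans h
  omega

lemma sum_pow_natAbs_le (w : ℝ) (hw0 : 0 ≤ w) (hw : w < 1) (n : ℕ) :
    ∑ j ∈ Finset.Icc (-(n : ℤ)) n, w ^ j.natAbs ≤ 2 * (1 - w)⁻¹ := by
  have h1 : ∀ n : ℕ, ∑ j ∈ Finset.Icc (-(n : ℤ)) n, w ^ j.natAbs ≤
      2 * ∑ i ∈ Finset.range (n + 1), w ^ i := by
    intro n
    induction n with
    | zero => simp
    | succ n ih =>
      have : Finset.Icc (-((n + 1 : ℕ) : ℤ)) (n + 1 : ℕ) =
          insert (-((n + 1 : ℕ) : ℤ)) (insert ((n + 1 : ℕ) : ℤ) (Finset.Icc (-(n : ℤ)) n)) := by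
        ext j; simp only [Finset.mem_Icc, Finset.mem_insert]; omega
      rw [this, Finset.sum_insert (by simp only [Finset.mem_Icc, Finset.mem_insert]; omega),
        Finset.sum_insert (by simp only [Finset.mem_Icc]; omega), Finset.sum_range_succ _ (n + 1)]
      simp only [Int.natAbs_neg, Int.natAbs_natCast]
      linarith
  refine (h1 n).trans ?_
  gcongr
  rw [← tsum_geometric_of_lt_one hw0 hw]
  exact (summable_geometric_of_lt_one hw0 hw).sum_le_tsum _ fun i _ => by positivity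

lemma card_goodCells (k L : ℕ) (hL : 1 ≤ L) :
    ((goodCells k L).card : ℝ) ≤ (6 * (L + 1)) ^ k := by
  set w : ℝ := L / (L + 1) with hw
  have hL0 : (0 : ℝ) < L := by exact_mod_cast hL
  have hw0 : 0 < w := by positivity
  have hw1 : w < 1 := by rw [hw, div_lt_one (by positivity)]; linarith
  have h1 : ((goodCells k L).card : ℝ) * w ^ (L * k) ≤ (2 * (L + 1)) ^ k := by
    calc ((goodCells k L).card : ℝ) * w ^ (L * k) = ∑ c ∈ goodCells k L, w ^ (L * k) := by simp
      _ ≤ ∑ c ∈ goodCells k L, ∏ l, w ^ (c l).natAbs := by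
          apply Finset.sum_le_sum
          intro c hc
          rw [Finset.prod_pow_eq_pow_sum]
          exact pow_le_pow_of_le_one hw0.le hw1.le (Finset.mem_filter.1 hc).2
      _ ≤ ∑ c ∈ Fintype.piFinset fun _ : Fin k => Finset.Icc (-(L * k : ℕ) : ℤ) (L * k : ℕ),
            ∏ l, w ^ (c l).natAbs :=
          Finset.sum_le_sum_of_subset_of_nonneg (Finset.filter_subset _ _)
            fun c _ _ => by positivity
      _ = ∏ _l : Fin k, ∑ j ∈ Finset.Icc (-(L * k : ℕ) : ℤ) (L * k : ℕ), w ^ j.natAbs :=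
          (Finset.prod_univ_sum _ (fun _ (j : ℤ) => w ^ j.natAbs)).symm
      _ ≤ ∏ _l : Fin k, (2 * (L + 1) : ℝ) := by
          apply Finset.prod_le_prod (fun _ _ => by positivity)
          intro l _
          refine (sum_pow_natAbs_le w hw0.le hw1 _).trans (le_of_eq ?_)
          rw [hw]; field_simp; ring
      _ = _ := by simp
  have h2 : 1 ≤ 3 * w ^ L := by
    have h3 : (1 + 1 / (L : ℝ)) ^ L ≤ 3 := by
      have h4 : (1 + 1 / (L : ℝ)) ≤ Real.exp (1 / L) := by
        linarith [Real.add_one_le_exp (1 / (L : ℝ))]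
      calc (1 + 1 / (L : ℝ)) ^ L ≤ Real.exp (1 / L) ^ L := by gcongr
        _ = Real.exp 1 := by rw [← Real.exp_nat_mul]; congr 1; field_simp
        _ ≤ 3 := by linarith [Real.exp_one_lt_d9]
    have h5 : (1 + 1 / (L : ℝ)) ^ L * w ^ L = 1 := by
      rw [← mul_pow, hw]
      have : (1 + 1 / (L : ℝ)) * (L / (L + 1)) = 1 := by field_simp
      rw [this, one_pow]
    have : 0 ≤ w ^ L := by positivity
    nlinarith
  calc ((goodCells k L).card : ℝ) ≤ (goodCells k L).card * (3 * w ^ L) ^ k :=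
        le_mul_of_one_le_right (by positivity) (one_le_pow₀ h2)
    _ = 3 ^ k * ((goodCells k L).card * w ^ (L * k)) := by rw [mul_pow, ← pow_mul]; ring
    _ ≤ 3 ^ k * (2 * (L + 1)) ^ k := by gcongr
    _ = _ := by rw [← mul_pow]; congr 1; ring

lemma le_add_pow (a t : ℝ≥0∞) (ht : t ≠ 0) (ht' : t ≠ ⊤) (n : ℕ) :
    a ≤ t + t⁻¹ ^ n * a ^ (n + 1) := by
  rcases le_total a t with h | h
  · exact h.trans le_self_add
  · refine le_trans ?_ le_add_self
    have h1 : 1 ≤ t⁻¹ * a := by
      calc (1 : ℝ≥0∞) = t⁻¹ * t := (ENNReal.inv_mul_cancel ht ht').symm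
        _ ≤ t⁻¹ * a := by gcongr
    calc a = 1 * a := (one_mul a).symm
      _ ≤ (t⁻¹ * a) ^ n * a := by gcongr; exact one_le_pow₀ h1
      _ = _ := by rw [mul_pow]; ring

end Crest.Agent.R322
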