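import Crest.Agent.R322.Sphere

set_option autoImplicit false

namespace Crest.Agent.R322

open MeasureTheory ProbabilityTheory Metric Crest.StreamLearn
open scoped ENNReal NNReal RealInnerProductSpace

variable {S : Type*} [MeasurableSpace S] [Countable S] [DiscreteMeasurableSpace S] {D : ℕ}

/-- success probability of a deterministic learner -/
noncomputable def succ {S : Type*} {d : ℕ} (f : ℕ → S → E d → ℝ → S) (o : S → E d) (ε : ℝ)
    (T : ℕ) (s : S) : ℝ≥0∞ :=
  ∫⁻ θ, U f (fun m => (good ε (o m)).indicator 1) 0 T s θ ∂sig d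

lemma good_subset {d : ℕ} {ε : ℝ} (hε : 0 < ε) {o : E d} (ho : ‖o‖ = 1) :
    good ε o ⊆ ball o (2 * ε) := by
  intro θ h
  rw [mem_ball, dist_eq_norm]
  linarith [norm_sub_le_of_good ho h]

lemma succ_count {f : ℕ → S → E (D + 1) → ℝ → S}
    (hf : ∀ t s, Measurable fun p : E (D + 1) × ℝ => f t s p.1 p.2) (R : Finset S)
    (hR : ∀ t, ∀ s ∈ R, ∀ x y, f t s x y ∈ R) (o : S → E (D + 1)) (ho : ∀ m, ‖o m‖ = 1)
    {ε : ℝ} (hε : 0 < ε) (T : ℕ) (s : S) (hs : s ∈ R) :
    succ f o ε T s ≤ ENNReal.ofReal (R.card * (6 * (4 * ε) ^ D)) := by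
  calc succ f o ε T s ≤ ∫⁻ θ, ∑ m ∈ R, (ball (o m) (2 * ε)).indicator 1 θ ∂sig (D + 1) := by
        apply lintegral_mono
        intro θ
        simp only
        rw [U_eq_sum hf R hR _ _ _ s hs]
        apply Finset.sum_le_sum
        intro m _
        refine (mul_le_of_le_one_left' prob_le_one).trans ?_
        exact Set.indicator_le_indicator_of_subset (good_subset hε (ho m)) (fun _ => zero_le) θ
    _ = ∑ m ∈ R, sig (D + 1) (ball (o m) (2 * ε)) := by
        rw [lintegral_finsetSum _ fun m _ => measurable_one.indicator measurableSet_ball]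
        simp_rw [lintegral_indicator_one measurableSet_ball]
    _ ≤ ∑ m ∈ R, ENNReal.ofReal (6 * 2 ^ D * (2 * ε) ^ D) :=
        Finset.sum_le_sum fun m _ => sig_grow D _ _ (by positivity)
    _ = _ := by
        rw [Finset.sum_const, nsmul_eq_mul, ← ENNReal.ofReal_natCast,
          ← ENNReal.ofReal_mul (by positivity), mul_assoc 6, ← mul_pow]
        congr 4; ring

lemma succ_small {f : ℕ → S → E (D + 1) → ℝ → S}
    (hf : ∀ t s, Measurable fun p : E (D + 1) × ℝ => f t s p.1 p.2)
    (o : S → E (D + 1)) (ho : ∀ m, ‖o m‖ = 1) {ε : ℝ} (hε : ε ≤ 1 / 10) {q : ℕ}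
    (hD : 4 * q ≤ D) (hq : 15 ≤ q) (T : ℕ) (hT : T ≤ q) (s : S) :
    succ f o ε T s ≤ ENNReal.ofReal (5 / 8) := by
  have hp := prob_sig (d := D + 1) (by omega)
  set Z : Set ((Fin T → E (D + 1)) × E (D + 1)) :=
    {p | p.2 ∈ good ε (o (run f 0 T s (obs p.1 p.2)))} with hZ
  have hZm : MeasurableSet Z := by
    have h1 : MeasurableSet {p : S × E (D + 1) | p.2 ∈ good ε (o p.1)} := by
      have : {p : S × E (D + 1) | p.2 ∈ good ε (o p.1)} = ⋃ m, {m} ×ˢ good ε (o m) := by
        ext p; simp [eq_comm]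
      rw [this]
      exact MeasurableSet.iUnion fun m =>
        (measurableSet_singleton m).prod (measurableSet_good ε _)
    exact ((measurable_run_obs hf 0 T s).prodMk measurable_snd) h1
  have h1 : succ f o ε T s = ((gpi (E (D + 1)) T).prod (sig (D + 1))) Z := by
    rw [Measure.prod_apply_symm hZm, succ]
    congr 1
    ext θ
    rw [U, ← lintegral_indicator_one (measurable_prodMk_right hZm)]
    congr 1
  rw [h1, Measure.prod_apply hZm]
  calc _ ≤ ∫⁻ _, ENNReal.ofReal (5 / 8) ∂gpi (E (D + 1)) T := by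
        apply lintegral_mono
        intro X
        refine reflect_bound hD hq (Submodule.span ℝ (Set.range X)) ?_
          (measurable_prodMk_left hZm) ?_
        · refine (finrank_range_le_card X).trans ?_
          simpa using hT
        · intro θ h1 h2
          set V := Submodule.span ℝ (Set.range X)
          have h3 : obs X (V.reflection θ) = obs X θ := by
            simp only [obs, Prod.mk.injEq, true_and]
            ext l
            have h4 : V.reflection (X l) = X l :=
              Submodule.reflection_mem_subspace_eq_self (Submodule.subset_span ⟨l, rfl⟩)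
            conv_lhs => rw [← h4]
            exact V.reflection.inner_map_map _ _
          simp only [hZ, Set.mem_preimage, Set.mem_ofPred_eq, h3] at h1 h2
          have h5 := norm_sub_le_of_good (ho _) h1
          have h6 := norm_sub_le_of_good (ho _) h2
          have h7 := norm_sub_le_norm_sub_add_norm_sub θ (o (run f 0 T s (obs X θ)))
            (V.reflection θ)
          rw [norm_sub_rev] at h6
          linarith
    _ = _ := by simp

lemma succ_main {f : ℕ → S → E (D + 1) → ℝ → S}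
    (hf : ∀ t s, Measurable fun p : E (D + 1) × ℝ => f t s p.1 p.2) (R : Finset S)
    (hR : ∀ t, ∀ s ∈ R, ∀ x y, f t s x y ∈ R) (o : S → E (D + 1)) (ho : ∀ m, ‖o m‖ = 1)
    {ε : ℝ} (hε : 0 < ε) (hε1 : ε ≤ 1 / 10) {q : ℕ} (hq : 1 ≤ q) (hD : 4 * q ≤ D)
    (T : ℕ) (hT : ∀ t, T ≤ t → ∀ s x y, f t s x y = s) (j : ℕ) (hj : T ≤ j * q)
    (τ : ℝ) (hτ : 0 < τ) (hτ1 : τ ≤ 1)
    (hcard : (R.card : ℝ) * ((11520 * τ) ^ q) ^ q ≤ 2⁻¹ ^ q) (s : S) (hs : s ∈ R) :
    succ f o ε T s ≤ ENNReal.ofReal (j * (6 * 2⁻¹ ^ q) +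
      (2 * ε * (2 / τ ^ 2) ^ j) ^ q * (6 * 2 ^ D) * 2 ^ (3 * q)) := by
  have hp := prob_sig (d := D + 1) (by omega)
  have := claim_all hf R hR (fun m => good ε (o m)) (fun m => measurableSet_good ε _) o (2 * ε)
    (by positivity) (by linarith) (fun m => good_subset hε (ho m)) hq hD τ hτ hτ1 hcard j 0 s hs
    (sig (D + 1)) inferInstance (6 * 2 ^ D) (by positivity) 0 2 (by norm_num) (sig_grow D) sig_supp
  simp_rw [U_pad hf _ T hT _ hj] at this
  rw [measure_univ, mul_one, ← ENNReal.ofReal_add (by positivity) (by positivity)] at this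
  exact this

end Crest.Agent.R322
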