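import Crest.Agent.R322.Link

set_option autoImplicit false

namespace Crest.Agent.R322

open MeasureTheory ProbabilityTheory Metric Crest.StreamLearn Filter Topology
open scoped ENNReal NNReal RealInnerProductSpace

lemma card_reach_exp {d T M : ℕ} (L : RLearner d T M) :
    ((reach L).card : ℝ) ≤ Real.exp (M + T + 1) := by
  have h1 : ((reach L).card : ℝ) ≤ 2 ^ M * (T + 2) := by exact_mod_cast card_reach L
  have h2 : (2 : ℝ) ^ M ≤ Real.exp M := by
    rw [← mul_one (M : ℝ), Real.exp_nat_mul]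
    apply pow_le_pow_left₀ (by norm_num)
    linarith [Real.add_one_le_exp 1]
  have h3 : (T : ℝ) + 2 ≤ Real.exp (T + 1) := by linarith [Real.add_one_le_exp ((T : ℝ) + 1)]
  calc _ ≤ _ := h1
    _ ≤ Real.exp M * Real.exp (T + 1) := by gcongr
    _ = _ := by rw [← Real.exp_add, add_assoc]

lemma count_bound {D T M : ℕ} (L : RLearner (D + 1) T M) {ε : ℝ} (hε : 0 < ε)
    (h : 2 / 3 ≤ L.successProb ε) :
    D * Real.log (1 / ε) ≤ M + T + 4 + 2 * D := by
  have h1 := successProb_le L (by omega) ε _ (by positivity) fun ω =>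
    succ_count (measurable_step' L ω) (reach L) (step_mem L ω) (outp L ω)
      (fun m => L.out_unit _ _ _) hε T _ (ini_mem L ω)
  have h2 := card_reach_exp L
  have h3 : (4 * ε) ^ D ≤ Real.exp (D * (2 - Real.log (1 / ε))) := by
    rw [Real.exp_nat_mul]
    apply pow_le_pow_left₀ (by positivity)
    rw [Real.exp_sub, Real.exp_log (by positivity), div_div_eq_mul_div, div_one]
    have : (4 : ℝ) ≤ Real.exp 2 := by
      have := Real.add_one_le_exp 1
      rw [show (2 : ℝ) = 1 + 1 by norm_num, Real.exp_add]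
      nlinarith
    gcongr
  have h4 : (9 : ℝ) ≤ Real.exp 3 := by
    have := Real.quadratic_le_exp_of_nonneg (x := 3 / 2) (by norm_num)
    rw [show (3 : ℝ) = 3 / 2 + 3 / 2 by norm_num, Real.exp_add]
    nlinarith
  have h5 : (1 : ℝ) ≤ Real.exp (M + T + 1 + 3 + D * (2 - Real.log (1 / ε))) := by
    rw [Real.exp_add, Real.exp_add]
    calc (1 : ℝ) ≤ 3 / 2 * ((reach L).card * (6 * (4 * ε) ^ D)) := by linarith
      _ = (reach L).card * 9 * (4 * ε) ^ D := by ring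
      _ ≤ _ := by gcongr
  have h6 := Real.one_le_exp_iff.1 h5
  linarith

lemma exists_q₀ (B : ℝ) : ∃ q₀ : ℕ, ∀ q ≥ q₀, (B * q + 48) * (2⁻¹ : ℝ) ^ q ≤ 1 / 2 := by
  have h1 := tendsto_self_mul_const_pow_of_lt_one (r := (2⁻¹ : ℝ)) (by norm_num) (by norm_num)
  have h2 := tendsto_pow_atTop_nhds_zero_of_lt_one (r := (2⁻¹ : ℝ)) (by norm_num) (by norm_num)
  have h3 := (h1.const_mul B).add (h2.const_mul 48)
  simp only [mul_zero, add_zero] at h3
  obtain ⟨q₀, hq₀⟩ := eventually_atTop.1 (h3.eventually (ge_mem_nhds (show (0 : ℝ) < 1 / 2 by norm_num)))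
  refine ⟨q₀, fun q hq => ?_⟩
  have := hq₀ q hq
  linarith

theorem lower_bound (A : ℝ) (hA : 0 < A) : ∃ c : ℝ, 0 < c ∧ ∃ d₀ : ℕ, ∀ d ≥ d₀, ∀ (M T : ℕ),
    (M : ℝ) ≤ A * (d : ℝ) ^ 2 → ∀ ε : ℝ, 0 < ε → ε ≤ 1 / 10 →
      ∀ L : RLearner d T M, 2 / 3 ≤ L.successProb ε → c * d * Real.log (1 / ε) ≤ T := by
  set A₁ : ℝ := 25 * (2 * A + 7) with hA₁
  set τ : ℝ := Real.exp (-(A₁ + 1)) / 11520 with hτdef
  have hτ : 0 < τ := by positivity
  have hτ1 : τ ≤ 1 := by
    have : Real.exp (-(A₁ + 1)) ≤ 1 := Real.exp_le_one_iff.2 (by linarith)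
    rw [hτdef]; linarith
  set H : ℝ := Real.log (2 / τ ^ 2) with hH
  have hH0 : 0 ≤ H := by
    apply Real.log_nonneg
    rw [le_div_iff₀ (by positivity)]
    nlinarith
  have hHe : 2 / τ ^ 2 = Real.exp H := (Real.exp_log (by positivity)).symm
  obtain ⟨q₀, hq₀⟩ := exists_q₀ (6 * (25 * (A + 6) + 1))
  refine ⟨1 / (70 + 10 * H), by positivity, 4 * (q₀ + 15) + 1, ?_⟩
  intro d hd M T hM ε hε hε1 L hL
  obtain ⟨D, rfl⟩ : ∃ D, d = D + 1 := ⟨d - 1, by omega⟩
  set q := D / 4 with hq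
  have hD : 4 * q ≤ D := by omega
  have hD2 : D ≤ 4 * q + 3 := by omega
  have hq15 : 15 ≤ q := by omega
  have hqq : q₀ ≤ q := by omega
  have hdq : ((D + 1 : ℕ) : ℝ) ≤ 5 * q := by exact_mod_cast (by omega : D + 1 ≤ 5 * q)
  have hq15' : (15 : ℝ) ≤ q := by exact_mod_cast hq15
  have hD60 : (60 : ℝ) ≤ D := by exact_mod_cast (by omega : 60 ≤ D)
  set l := Real.log (1 / ε) with hl
  have hl0 : 0 ≤ l := by
    apply Real.log_nonneg
    rw [le_div_iff₀ hε]; linarith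
  have hεl : ε = Real.exp (-l) := by
    rw [Real.exp_neg, hl, Real.exp_log (by positivity)]; simp
  by_contra hcon
  push Not at hcon
  have hcon2 : (70 + 10 * H) * T < (D + 1 : ℕ) * l := by
    rw [mul_assoc, one_div, inv_mul_eq_div, lt_div_iff₀ (by positivity)] at hcon
    linarith
  have hT0 : (0 : ℝ) ≤ T := by positivity
  have hcon3 : (70 + 10 * H) * T < 5 * q * l := hcon2.trans_le (by gcongr)
  by_cases hsm : l ≤ 14 + 2 * H
  · have hTq : T ≤ q := by
      have h1 : (70 + 10 * H) * T < (70 + 10 * H) * q := by nlinarith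
      have h2 := lt_of_mul_lt_mul_left h1 (by positivity)
      exact_mod_cast h2.le
    have h1 := successProb_le L (by omega) ε _ (by norm_num) fun ω =>
      succ_small (measurable_step' L ω) (outp L ω)
        (fun m => L.out_unit _ _ _) hε1 hD hq15 T hTq (ini L ω)
    linarith
  push Not at hsm
  have hc := count_bound L hε hL
  rw [← hl] at hc
  have hT1 : (T : ℝ) ≤ (A + 6) * ((D + 1 : ℕ) : ℝ) ^ 2 := by
    push_cast at hcon2 hM ⊢
    have h1 : 70 * (T : ℝ) ≤ 2 * (D * l) := by nlinarith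
    nlinarith
  have hdq2 : ((D + 1 : ℕ) : ℝ) ^ 2 ≤ 25 * (q : ℝ) ^ 2 := by
    calc _ ≤ (5 * (q : ℝ)) ^ 2 := by gcongr
      _ = _ := by ring
  have hT2 : (T : ℝ) ≤ 25 * (A + 6) * (q : ℝ) ^ 2 := by nlinarith
  have hcard : ((reach L).card : ℝ) * ((11520 * τ) ^ q) ^ q ≤ 2⁻¹ ^ q := by
    have h1 : 11520 * τ = Real.exp (-(A₁ + 1)) := by rw [hτdef]; field_simp
    have h2 : (M : ℝ) + T + 1 ≤ A₁ * (q : ℝ) ^ 2 := by rw [hA₁]; nlinarith
    have h3 : Real.exp (-1) ≤ 2⁻¹ := by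
      rw [Real.exp_neg]
      apply inv_anti₀ (by norm_num)
      linarith [Real.add_one_le_exp 1]
    rw [h1, ← Real.exp_nat_mul, ← Real.exp_nat_mul]
    calc _ ≤ Real.exp (A₁ * (q : ℝ) ^ 2) * Real.exp (q * (q * -(A₁ + 1))) := by
          gcongr
          exact (card_reach_exp L).trans (Real.exp_le_exp.2 h2)
      _ ≤ Real.exp (q * (-1)) := by
          rw [← Real.exp_add]
          apply Real.exp_le_exp.2
          nlinarith
      _ ≤ _ := by
          rw [Real.exp_nat_mul]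
          gcongr
  set j := T / q + 1 with hj
  have hjq : T ≤ j * q := by
    have := Nat.div_add_mod T q
    have := Nat.mod_lt T (by omega : q > 0)
    rw [hj]; nlinarith
  have hjq2 : (j : ℝ) * q ≤ T + q := by
    have := Nat.div_mul_le_self T q
    have h2 : j * q ≤ T + q := by rw [hj, add_mul, one_mul]; omega
    exact_mod_cast h2
  have hj1 : (j : ℝ) ≤ (25 * (A + 6) + 1) * q := by
    apply le_of_mul_le_mul_right _ (by linarith : (0 : ℝ) < q)
    nlinarith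
  have hj2 : (j : ℝ) * H ≤ l / 2 + H := by
    apply le_of_mul_le_mul_right _ (by linarith : (0 : ℝ) < q)
    have : (j : ℝ) * q * H ≤ (T + q) * H := by gcongr
    nlinarith
  have hsec : 2 * ε * (2 / τ ^ 2) ^ j ≤ 2⁻¹ ^ 8 := by
    rw [hHe, ← Real.exp_nat_mul, hεl, mul_assoc, ← Real.exp_add]
    have h1 : Real.exp (-l + j * H) ≤ Real.exp (-7) := Real.exp_le_exp.2 (by linarith)
    have h2 : Real.exp (-7) ≤ 2⁻¹ ^ 9 := by
      rw [Real.exp_neg, inv_pow]
      apply inv_anti₀ (by norm_num)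
      have h3 := Real.exp_one_gt_d9
      calc (2 : ℝ) ^ 9 ≤ 2.7 ^ 7 := by norm_num
        _ ≤ Real.exp 1 ^ 7 := by gcongr; linarith
        _ = _ := by rw [← Real.exp_nat_mul]; norm_num
    linarith
  have hsec2 : (2 * ε * (2 / τ ^ 2) ^ j) ^ q * (6 * 2 ^ D) * 2 ^ (3 * q) ≤ 48 * 2⁻¹ ^ q := by
    calc _ ≤ ((2⁻¹ : ℝ) ^ 8) ^ q * (6 * 2 ^ (4 * q + 3)) * 2 ^ (3 * q) := by
          gcongr
          norm_num
      _ = 48 * (2⁻¹ ^ 8 * 2 ^ 4 * 2 ^ 3) ^ q := by
          rw [mul_pow, mul_pow, pow_add, pow_mul, pow_mul]; ring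
      _ = _ := by norm_num
  have h1 := successProb_le L (by omega) ε _ (by positivity) fun ω =>
    succ_main (measurable_step' L ω) (reach L) (step_mem L ω) (outp L ω)
      (fun m => L.out_unit _ _ _) hε hε1 (by omega) hD T (step_id L ω) j hjq τ hτ hτ1 hcard _
      (ini_mem L ω)
  have h2 := hq₀ q hqq
  have h3 : (j : ℝ) * (6 * 2⁻¹ ^ q) ≤ (25 * (A + 6) + 1) * q * (6 * 2⁻¹ ^ q) := by gcongr
  linarith

end Crest.Agent.R322
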