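import Mathlib

set_option autoImplicit false

namespace Crest.Agent.R322

open MeasureTheory ProbabilityTheory
open scoped ENNReal NNReal RealInnerProductSpace

variable {E : Type*} [NormedAddCommGroup E] [InnerProductSpace ℝ E] [FiniteDimensional ℝ E]
  [MeasurableSpace E] [BorelSpace E]

/-- resampling one coordinate of a standard Gaussian vector -/
lemma resample (u : E) (hu : ‖u‖ = 1) :
    ((stdGaussian E).prod (gaussianReal 0 1)).map
      (fun p : E × ℝ => p.1 - ⟪p.1, u⟫ • u + p.2 • u) = stdGaussian E := by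
  have hm : Measurable (fun p : E × ℝ => p.1 - ⟪p.1, u⟫ • u + p.2 • u) := by fun_prop
  have : IsProbabilityMeasure (((stdGaussian E).prod (gaussianReal 0 1)).map
      (fun p : E × ℝ => p.1 - ⟪p.1, u⟫ • u + p.2 • u)) :=
    Measure.isProbabilityMeasure_map hm.aemeasurable
  apply Measure.ext_of_charFun
  ext t
  rw [charFun_apply, integral_map hm.aemeasurable (by fun_prop)]
  have h1 : ∀ p : E × ℝ, Complex.exp ((⟪p.1 - ⟪p.1, u⟫ • u + p.2 • u, t⟫ : ℝ) * Complex.I) =
      Complex.exp ((⟪p.1, t - ⟪u, t⟫ • u⟫ : ℝ) * Complex.I) *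
        Complex.exp ((⟪p.2, ⟪u, t⟫⟫ : ℝ) * Complex.I) := by
    intro p
    rw [← Complex.exp_add]
    congr 1
    rw [← add_mul]
    congr 1
    rw [← Complex.ofReal_add]
    congr 1
    simp only [inner_add_left, inner_sub_left, inner_sub_right, real_inner_smul_left,
      real_inner_smul_right]
    simp
    ring
  simp_rw [h1]
  rw [integral_prod_mul (f := fun x : E => Complex.exp ((⟪x, t - ⟪u, t⟫ • u⟫ : ℝ) * Complex.I))
    (g := fun y : ℝ => Complex.exp ((⟪y, ⟪u, t⟫⟫ : ℝ) * Complex.I))]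
  rw [← charFun_apply, ← charFun_apply, charFun_stdGaussian, charFun_stdGaussian,
    charFun_gaussianReal, ← Complex.exp_add]
  congr 1
  have h2 : ‖t - ⟪u, t⟫ • u‖ ^ 2 = ‖t‖ ^ 2 - ⟪u, t⟫ ^ 2 := by
    rw [norm_sub_sq_real, norm_smul, hu, real_inner_smul_right, real_inner_comm u t]
    simp
    ring
  have h3 : ((‖t - ⟪u, t⟫ • u‖ : ℝ) : ℂ) ^ 2 = (‖t‖ : ℂ) ^ 2 - ((⟪u, t⟫ : ℝ) : ℂ) ^ 2 := by
    exact_mod_cast h2
  rw [h3]
  simp
  ring

lemma gaussianReal_Icc_le (a b : ℝ) :
    gaussianReal 0 1 (Set.Icc a b) ≤ ENNReal.ofReal ((b - a) / 2) := by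
  rw [gaussianReal_apply _ one_ne_zero]
  have h : ∀ x, gaussianPDF 0 1 x ≤ ENNReal.ofReal (1 / 2) := by
    intro x
    rw [gaussianPDF]
    apply ENNReal.ofReal_le_ofReal
    rw [gaussianPDFReal]
    have h1 : Real.exp (-(x - 0) ^ 2 / (2 * ((1 : ℝ≥0) : ℝ))) ≤ 1 := by
      apply Real.exp_le_one_iff.2
      simp only [NNReal.coe_one, mul_one]
      have := sq_nonneg (x - 0)
      linarith
    have h2 : (√(2 * Real.pi * ((1 : ℝ≥0) : ℝ)))⁻¹ ≤ 1 / 2 := by
      rw [one_div]
      apply inv_anti₀ (by norm_num)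
      apply Real.le_sqrt_of_sq_le
      have := Real.pi_gt_three
      simp only [NNReal.coe_one, mul_one]
      linarith
    calc _ ≤ (1 / 2) * 1 := mul_le_mul h2 h1 (Real.exp_pos _).le (by norm_num)
      _ = 1 / 2 := by norm_num
  calc ∫⁻ x in Set.Icc a b, gaussianPDF 0 1 x ≤ ∫⁻ x in Set.Icc a b, ENNReal.ofReal (1 / 2) :=
        lintegral_mono h
    _ = ENNReal.ofReal (1 / 2) * ENNReal.ofReal (b - a) := by simp
    _ = ENNReal.ofReal ((b - a) / 2) := by
        rw [← ENNReal.ofReal_mul (by norm_num)]; congr 1; ring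

lemma gaussianReal_slab_le (c D η : ℝ) (hD : 0 < D) :
    gaussianReal 0 1 {g : ℝ | |c + g * D| ≤ η} ≤ ENNReal.ofReal (η / D) := by
  have : {g : ℝ | |c + g * D| ≤ η} ⊆ Set.Icc ((-η - c) / D) ((η - c) / D) := by
    intro g hg
    simp only [Set.mem_ofPred_eq, abs_le] at hg
    constructor
    · rw [div_le_iff₀ hD]; linarith [hg.1]
    · rw [le_div_iff₀ hD]; linarith [hg.2]
  refine (measure_mono this).trans ((gaussianReal_Icc_le _ _).trans (le_of_eq ?_))
  congr 1
  field_simp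
  ring

/-- A set invariant under shifts orthogonal to `V`. -/
def Cyl (V : Submodule ℝ E) (A : Set E) : Prop := ∀ x ∈ A, ∀ w ∈ Vᗮ, x + w ∈ A

/-- Small ball estimate: one more slab costs a factor `η / dist`. -/
lemma slab_le (V : Submodule ℝ E) (A : Set E) (hA : MeasurableSet A) (hc : Cyl V A) (v : E)
    (η ρ : ℝ) (hη : 0 ≤ η) (hρ : 0 < ρ) (hv : ∀ w ∈ V, ρ ≤ ‖v - w‖) :
    stdGaussian E (A ∩ {x | |⟪x, v⟫| ≤ η}) ≤ stdGaussian E A * ENNReal.ofReal (η / ρ) := by
  set w := v - V.starProjection v with hw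
  have hwV : w ∈ Vᗮ := V.sub_starProjection_mem_orthogonal v
  have hD : ρ ≤ ‖w‖ := hv _ (V.starProjection_apply_mem v)
  have hD0 : 0 < ‖w‖ := hρ.trans_le hD
  set u := ‖w‖⁻¹ • w with hu
  have hu1 : ‖u‖ = 1 := by
    rw [hu, norm_smul, norm_inv, norm_norm, inv_mul_cancel₀ hD0.ne']
  have huV : u ∈ Vᗮ := Vᗮ.smul_mem _ hwV
  have huv : ⟪u, v⟫ = ‖w‖ := by
    have h1 : v = w + V.starProjection v := by simp [hw]
    have h2 : ⟪w, V.starProjection v⟫ = 0 := by
      rw [real_inner_comm]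
      exact (Submodule.mem_orthogonal V w).1 hwV _ (V.starProjection_apply_mem v)
    have h3 : ⟪w, v⟫ = ‖w‖ ^ 2 := by
      conv_lhs => rw [h1]
      rw [inner_add_right, h2, real_inner_self_eq_norm_sq]; simp
    rw [hu, real_inner_smul_left, h3]
    field_simp
  have hm : Measurable (fun p : E × ℝ => p.1 - ⟪p.1, u⟫ • u + p.2 • u) := by fun_prop
  have hS : MeasurableSet (A ∩ {x : E | |⟪x, v⟫| ≤ η}) :=
    hA.inter (measurableSet_le (by fun_prop) (by fun_prop))
  conv_lhs => rw [← resample u hu1]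
  rw [Measure.map_apply hm hS, Measure.prod_apply (hm hS)]
  calc ∫⁻ x, gaussianReal 0 1 (Prod.mk x ⁻¹' ((fun p : E × ℝ => p.1 - ⟪p.1, u⟫ • u + p.2 • u) ⁻¹'
          (A ∩ {x : E | |⟪x, v⟫| ≤ η}))) ∂stdGaussian E
      ≤ ∫⁻ x, A.indicator (fun _ => ENNReal.ofReal (η / ρ)) x ∂stdGaussian E := by
        apply lintegral_mono
        intro x
        by_cases hx : x ∈ A
        · simp only [Set.indicator_of_mem hx]
          refine le_trans (measure_mono ?_)
            ((gaussianReal_slab_le (⟪x - ⟪x, u⟫ • u, v⟫) ‖w‖ η hD0).trans ?_)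
          · intro g hg
            have := hg.2
            simp only [Set.mem_ofPred_eq] at this ⊢
            rwa [inner_add_left, real_inner_smul_left, huv] at this
          · exact ENNReal.ofReal_le_ofReal (div_le_div_of_nonneg_left hη hρ hD)
        · simp only [Set.indicator_of_notMem hx]
          have : Prod.mk x ⁻¹' ((fun p : E × ℝ => p.1 - ⟪p.1, u⟫ • u + p.2 • u) ⁻¹'
              (A ∩ {x : E | |⟪x, v⟫| ≤ η})) = ∅ := by
            ext g
            simp only [Set.mem_preimage, Set.mem_inter_iff, Set.mem_empty_iff_false, iff_false]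
            rintro ⟨h, -⟩
            apply hx
            have := hc _ h ((⟪x, u⟫ - g) • u) (Vᗮ.smul_mem _ huV)
            convert this using 1
            rw [sub_smul]; abel
          rw [this]; simp
    _ = stdGaussian E A * ENNReal.ofReal (η / ρ) := by
        rw [lintegral_indicator_const hA, mul_comm]

lemma integral_exp_inner (w : E) :
    Integrable (fun x : E => Real.exp ⟪x, w⟫) (stdGaussian E) ∧
      ∫ x, Real.exp ⟪x, w⟫ ∂stdGaussian E = Real.exp (‖w‖ ^ 2 / 2) := by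
  have hmap := IsGaussian.map_eq_gaussianReal (μ := stdGaussian E) (innerSL ℝ w)
  rw [integral_strongDual_stdGaussian, variance_dual_stdGaussian, innerSL_apply_norm] at hmap
  have hm : AEMeasurable (innerSL ℝ w) (stdGaussian E) := (innerSL ℝ w).continuous.aemeasurable
  constructor
  · have := integrable_exp_mul_gaussianReal (μ := 0) (v := (‖w‖ ^ 2).toNNReal) 1
    rw [← hmap, integrable_map_measure (by fun_prop) hm] at this
    convert this using 1
    ext x
    simp [real_inner_comm]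
  · have := mgf_gaussianReal hmap 1
    rw [mgf] at this
    simp only [one_mul, innerSL_apply_apply, mul_one, zero_add, one_pow] at this
    simp_rw [real_inner_comm w]
    rw [this, Real.coe_toNNReal _ (by positivity)]

/-- tail bound for the `ℓ¹` norm of `k` measurements -/
lemma tail_le (k : ℕ) (w : E) (hw : ‖w‖ ≤ 1) :
    (Measure.pi fun _ : Fin k => stdGaussian E) {X | 2 * (k : ℝ) ≤ ∑ i, |⟪X i, w⟫|} ≤
      (2⁻¹ : ℝ≥0∞) ^ k := by
  set f : E → ℝ := fun x => Real.exp ⟪x, w⟫ + Real.exp ⟪x, -w⟫ with hf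
  have hfi : Integrable f (stdGaussian E) :=
    (integral_exp_inner w).1.add (integral_exp_inner (-w)).1
  have hfv : ∫ x, f x ∂stdGaussian E ≤ 2 * Real.exp (1 / 2) := by
    rw [hf, integral_add (integral_exp_inner w).1 (integral_exp_inner (-w)).1,
      (integral_exp_inner w).2, (integral_exp_inner (-w)).2, norm_neg]
    have : Real.exp (‖w‖ ^ 2 / 2) ≤ Real.exp (1 / 2) := by
      apply Real.exp_le_exp.2
      have : ‖w‖ ^ 2 ≤ 1 := by nlinarith [norm_nonneg w]
      linarith
    linarith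
  have hf0 : ∀ x, 0 ≤ f x := fun x => by positivity
  have hfa : ∀ x, Real.exp |⟪x, w⟫| ≤ f x := by
    intro x
    simp only [hf, inner_neg_right]
    rcases abs_cases ⟪x, w⟫ with h | h <;> rw [h.1] <;>
      linarith [Real.exp_pos ⟪x, w⟫, Real.exp_pos (-⟪x, w⟫)]
  have hint : Integrable (fun X : Fin k → E => ∏ i, f (X i))
      (Measure.pi fun _ : Fin k => stdGaussian E) :=
    Integrable.fintype_prod (f := fun _ => f) (fun _ => hfi)
  have hM := mul_meas_ge_le_integral_of_nonneg (μ := Measure.pi fun _ : Fin k => stdGaussian E)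
    (f := fun X : Fin k → E => ∏ i, f (X i))
    (Filter.Eventually.of_forall fun X => Finset.prod_nonneg fun i _ => hf0 _) hint
    (Real.exp (2 * k))
  rw [integral_fintype_prod_eq_pow, Fintype.card_fin] at hM
  have hsub : {X : Fin k → E | 2 * (k : ℝ) ≤ ∑ i, |⟪X i, w⟫|} ⊆
      {X | Real.exp (2 * k) ≤ ∏ i, f (X i)} := by
    intro X hX
    simp only [Set.mem_ofPred_eq] at hX ⊢
    calc Real.exp (2 * k) ≤ Real.exp (∑ i, |⟪X i, w⟫|) := Real.exp_le_exp.2 hX
      _ = ∏ i, Real.exp |⟪X i, w⟫| := Real.exp_sum _ _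
      _ ≤ ∏ i, f (X i) := Finset.prod_le_prod (fun i _ => (Real.exp_pos _).le) fun i _ => hfa _
  refine (measure_mono hsub).trans ?_
  have h2 : (Measure.pi fun _ : Fin k => stdGaussian E).real
      {X | Real.exp (2 * k) ≤ ∏ i, f (X i)} ≤ (2⁻¹ : ℝ) ^ k := by
    have h3 : (∫ x, f x ∂stdGaussian E) ^ k ≤ (2 * Real.exp (1 / 2)) ^ k :=
      pow_le_pow_left₀ (integral_nonneg hf0) hfv k
    have h4 : (2 * Real.exp (1 / 2)) ^ k ≤ Real.exp (2 * k) * (2⁻¹ : ℝ) ^ k := by
      rw [mul_comm 2 (k : ℝ), Real.exp_nat_mul, ← mul_pow]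
      apply pow_le_pow_left₀ (by positivity)
      have h5 : Real.exp 2 = Real.exp (1 / 2) * Real.exp (3 / 2) := by
        rw [← Real.exp_add]; norm_num
      have h6 : 4 ≤ Real.exp (3 / 2) := by
        have h7 : Real.exp (3 / 2) = Real.exp 1 * Real.exp (1 / 2) := by
          rw [← Real.exp_add]; norm_num
        have h8 := Real.exp_one_gt_d9
        have h9 := Real.add_one_le_exp (1 / 2 : ℝ)
        rw [h7]; nlinarith
      rw [h5]; nlinarith [Real.exp_pos (1 / 2 : ℝ)]
    exact le_of_mul_le_mul_left (hM.trans (h3.trans h4)) (Real.exp_pos _)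
  rw [← ENNReal.ofReal_toReal (measure_ne_top _ _)]
  refine (ENNReal.ofReal_le_ofReal h2).trans (le_of_eq ?_)
  rw [ENNReal.ofReal_pow (by norm_num), ENNReal.ofReal_inv_of_pos (by norm_num)]
  simp

end Crest.Agent.R322
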