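import Crest.Agent.R322.Cells

set_option autoImplicit false

namespace Crest.Agent.R322

open MeasureTheory ProbabilityTheory Metric
open scoped ENNReal NNReal RealInnerProductSpace

variable {E : Type*} [NormedAddCommGroup E] [InnerProductSpace ℝ E] [FiniteDimensional ℝ E]
  [MeasurableSpace E] [BorelSpace E]

/-- what is shown in a block -/
noncomputable def obs {k : ℕ} (X : Fin k → E) (θ : E) : (Fin k → E) × (Fin k → ℝ) :=
  (X, fun l => ⟪X l, θ⟫)

lemma measurable_obs {k : ℕ} : Measurable fun p : (Fin k → E) × E => obs p.1 p.2 := by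
  unfold obs; fun_prop

/-- the cell of the measurement vector -/
noncomputable def cell {k : ℕ} (η : ℝ) (X : Fin k → E) (x₁ θ : E) : Fin k → ℤ :=
  fun l => ⌊⟪X l, θ - x₁⟫ / η⌋

lemma measurable_cell {k : ℕ} (η : ℝ) (x₁ : E) :
    Measurable fun p : (Fin k → E) × E => cell η p.1 x₁ p.2 := by
  apply measurable_pi_lambda
  intro l
  exact Measurable.floor (by fun_prop)

omit [FiniteDimensional ℝ E] [MeasurableSpace E] [BorelSpace E] in
lemma mem_slab_of_cell {k : ℕ} {η : ℝ} (hη : 0 < η) {X : Fin k → E} {x₁ θ θ₀ : E}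
    (h : cell η X x₁ θ = cell η X x₁ θ₀) : θ ∈ Slab η X θ₀ := by
  intro l
  have h1 := Int.abs_sub_lt_one_of_floor_eq_floor (congrFun h l)
  rw [← sub_div, ← inner_sub_right, abs_div, abs_of_pos hη, div_lt_one hη] at h1
  simpa using h1.le

lemma cells_bound {S : Type*} {k : ℕ} (μ : Measure E) [IsFiniteMeasure μ] (R : Finset S)
    (K : S → Set ((Fin k → E) × (Fin k → ℝ))) (η : ℝ) (hη : 0 < η)
    (hsep : ∀ m ∈ R, ∀ m' ∈ R, m ≠ m' → ∀ z ∈ K m, ∀ z' ∈ K m', η < dist z z')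
    (G : S → Set E) (X : Fin k → E) (x₁ : E)
    (C : Finset (Fin k → ℤ)) (t : ℝ≥0∞) (ht : t ≠ 0) (ht' : t ≠ ⊤) (n : ℕ) :
    μ {θ | ∃ m ∈ R, obs X θ ∈ K m ∧ θ ∈ G m ∧ cell η X x₁ θ ∈ C} ≤
      C.card * t + t⁻¹ ^ n * ∑ m ∈ R, ∫⁻ θ₀ in G m, (μ.restrict (G m)) (Slab η X θ₀) ^ n ∂μ := by
  set Z : (Fin k → ℤ) → Set E := fun c => {θ | cell η X x₁ θ = c} with hZ
  have hZm : ∀ c, MeasurableSet (Z c) := fun c =>
    ((measurable_cell η x₁).comp (f := fun θ => (X, θ)) (by fun_prop)) (measurableSet_singleton c)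
  have h1 : {θ | ∃ m ∈ R, obs X θ ∈ K m ∧ θ ∈ G m ∧ cell η X x₁ θ ∈ C} ⊆
      ⋃ c ∈ C, {θ | θ ∈ Z c ∧ ∃ m ∈ R, obs X θ ∈ K m ∧ θ ∈ G m} := by
    rintro θ ⟨m, hm, h1, h2, h3⟩
    simp only [Set.mem_iUnion]
    exact ⟨_, h3, rfl, m, hm, h1, h2⟩
  have h2 : ∀ c, μ {θ | θ ∈ Z c ∧ ∃ m ∈ R, obs X θ ∈ K m ∧ θ ∈ G m} ≤
      t + t⁻¹ ^ n * ∑ m ∈ R, (μ.restrict (G m)) (Z c) ^ (n + 1) := by
    intro c
    rcases Set.eq_empty_or_nonempty {θ | θ ∈ Z c ∧ ∃ m ∈ R, obs X θ ∈ K m ∧ θ ∈ G m} with h | h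
    · rw [h]; simp
    · obtain ⟨θ₁, hc₁, m₁, hm₁, hK₁, -⟩ := h
      have h3 : {θ | θ ∈ Z c ∧ ∃ m ∈ R, obs X θ ∈ K m ∧ θ ∈ G m} ⊆ Z c ∩ G m₁ := by
        rintro θ ⟨hc, m, hm, hK, hGm⟩
        refine ⟨hc, ?_⟩
        by_cases hmm : m = m₁
        · exact hmm ▸ hGm
        · exfalso
          have h4 := hsep m hm m₁ hm₁ hmm _ hK _ hK₁
          have h5 : θ ∈ Slab η X θ₁ := mem_slab_of_cell hη (hc.trans hc₁.symm)
          have h6 : dist (obs X θ) (obs X θ₁) ≤ η := by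
            rw [Prod.dist_eq]
            refine max_le (by simp [obs, hη.le]) ?_
            rw [dist_pi_le_iff hη.le]
            intro l
            have := h5 l
            simp only [obs, Real.dist_eq]
            rwa [← inner_sub_right]
          linarith
      refine (measure_mono h3).trans ?_
      rw [← Measure.restrict_apply (hZm c)]
      refine (le_add_pow _ t ht ht' n).trans ?_
      gcongr
      exact Finset.single_le_sum (f := fun m => (μ.restrict (G m)) (Z c) ^ (n + 1))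
        (fun _ _ => zero_le) hm₁
  have h3 : ∀ m, ∑ c ∈ C, (μ.restrict (G m)) (Z c) ^ (n + 1) ≤
      ∫⁻ θ₀ in G m, (μ.restrict (G m)) (Slab η X θ₀) ^ n ∂μ := by
    intro m
    calc ∑ c ∈ C, (μ.restrict (G m)) (Z c) ^ (n + 1)
        ≤ ∑ c ∈ C, ∫⁻ θ₀ in Z c, (μ.restrict (G m)) (Slab η X θ₀) ^ n ∂(μ.restrict (G m)) := by
          apply Finset.sum_le_sum
          intro c _
          rw [pow_succ, ← setLIntegral_const]
          apply setLIntegral_mono' (hZm c)
          intro θ₀ hθ₀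
          gcongr
          intro θ hθ
          exact mem_slab_of_cell hη (hθ.trans hθ₀.symm)
      _ = ∫⁻ θ₀ in ⋃ c ∈ C, Z c, (μ.restrict (G m)) (Slab η X θ₀) ^ n ∂(μ.restrict (G m)) := by
          rw [lintegral_biUnion_finset _ (fun c _ => hZm c)]
          intro c _ c' _ hcc
          rw [Function.onFun, Set.disjoint_left]
          intro θ h h'
          exact hcc (h.symm.trans h')
      _ ≤ _ := setLIntegral_le_lintegral _ _
  calc _ ≤ ∑ c ∈ C, μ {θ | θ ∈ Z c ∧ ∃ m ∈ R, obs X θ ∈ K m ∧ θ ∈ G m} :=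
        (measure_mono h1).trans (measure_biUnion_finset_le _ _)
    _ ≤ ∑ c ∈ C, (t + t⁻¹ ^ n * ∑ m ∈ R, (μ.restrict (G m)) (Z c) ^ (n + 1)) :=
        Finset.sum_le_sum fun c _ => h2 c
    _ = C.card * t + t⁻¹ ^ n * ∑ m ∈ R, ∑ c ∈ C, (μ.restrict (G m)) (Z c) ^ (n + 1) := by
        rw [Finset.sum_add_distrib, ← Finset.mul_sum, Finset.sum_comm]; simp
    _ ≤ _ := by gcongr with m; exact h3 m

lemma exists_sep {S Z : Type*} [MetricSpace Z] (R : Finset S) (K : S → Set Z)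
    (hK : ∀ m, IsCompact (K m)) (hd : ∀ m m', m ≠ m' → Disjoint (K m) (K m')) :
    ∃ η₀ : ℝ, 0 < η₀ ∧ ∀ m ∈ R, ∀ m' ∈ R, m ≠ m' → ∀ z ∈ K m, ∀ z' ∈ K m', η₀ < dist z z' := by
  have h : ∀ᶠ η in nhdsWithin (0 : ℝ) (Set.Ioi 0),
      ∀ m ∈ R, ∀ m' ∈ R, m ≠ m' → ∀ z ∈ K m, ∀ z' ∈ K m', η < dist z z' := by
    rw [Filter.eventually_all_finset]
    intro m _
    rw [Filter.eventually_all_finset]
    intro m' _
    by_cases hmm : m = m'
    · exact Filter.Eventually.of_forall fun η h => absurd hmm h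
    · obtain ⟨r, hr, h⟩ := Metric.exists_pos_forall_lt_edist (hK m) (hK m').isClosed (hd m m' hmm)
      have : ∀ᶠ η : ℝ in nhdsWithin (0 : ℝ) (Set.Ioi 0), η < (r : ℝ) :=
        nhdsWithin_le_nhds (Iio_mem_nhds (show (0 : ℝ) < (r : ℝ) by exact_mod_cast hr))
      filter_upwards [this] with η hη _ z hz z' hz'
      have h1 := h z hz z' hz'
      rw [edist_nndist, ENNReal.coe_lt_coe] at h1
      exact hη.trans (by exact_mod_cast h1)
  obtain ⟨η, h1, h2⟩ := (h.and self_mem_nhdsWithin).exists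
  exact ⟨η, h2, h1⟩

/-- The guessing lemma: a block of `q` samples compressed into one of `R.card` states cannot point
at a small set. -/
theorem guess {S : Type*} {q : ℕ} (hq : 1 ≤ q) (R : Finset S)
    (F : (Fin q → E) × (Fin q → ℝ) → S) (hF : ∀ m, MeasurableSet (F ⁻¹' {m}))
    (μ : Measure E) [IsProbabilityMeasure μ] {x₁ : E} {r₁ : ℝ} (h : Frost μ x₁ r₁ q)
    (τ : ℝ) (hτ : 0 < τ) (hτ1 : τ ≤ 1) (G : S → Set E) (hGm : ∀ m, MeasurableSet (G m))
    (hG : ∀ m, μ (G m) ≤ ENNReal.ofReal (τ ^ (2 * q)))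
    (hR : (R.card : ℝ) * ((11520 * τ) ^ q) ^ q ≤ 2⁻¹ ^ q) :
    ∑ m ∈ R, ∫⁻ θ in G m, gpi E q {X | F (obs X θ) = m} ∂μ ≤ 4 * (2⁻¹ : ℝ≥0∞) ^ q := by
  have hr := h.pos
  set P := (gpi E q).prod μ with hP
  set ob : (Fin q → E) × E → (Fin q → E) × (Fin q → ℝ) := fun p => obs p.1 p.2 with hob
  have hobm : Measurable ob := measurable_obs
  set Ev : S → Set ((Fin q → E) × E) := fun m => ob ⁻¹' (F ⁻¹' {m}) ∩ Prod.snd ⁻¹' G m with hEv
  have hEvm : ∀ m, MeasurableSet (Ev m) := fun m =>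
    (hobm (hF m)).inter (measurable_snd (hGm m))
  have h1 : ∀ m, ∫⁻ θ in G m, gpi E q {X | F (obs X θ) = m} ∂μ = P (Ev m) := by
    intro m
    rw [hP, Measure.prod_apply_symm (hEvm m), ← lintegral_indicator (hGm m)]
    congr 1
    ext θ
    by_cases hθ : θ ∈ G m
    · rw [Set.indicator_of_mem hθ]
      congr 1
      ext X
      simp [hEv, hob, hθ]
    · rw [Set.indicator_of_notMem hθ]
      have : (fun X => (X, θ)) ⁻¹' Ev m = ∅ := by
        ext X; simp [hEv, hθ]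
      rw [this]; simp
  simp_rw [h1]
  rw [← measure_biUnion_finset _ (fun m _ => hEvm m)]
  swap
  · intro m _ m' _ hmm
    rw [Function.onFun, Set.disjoint_left]
    intro p hp hp'
    exact hmm ((show F (ob p) = m from hp.1).symm.trans hp'.1)
  -- compact approximation
  set ζ : ℝ≥0∞ := (2⁻¹ : ℝ≥0∞) ^ q / (R.card + 1) with hζ
  have hζ0 : ζ ≠ 0 := by
    rw [hζ]
    exact (ENNReal.div_pos (pow_ne_zero _ (by simp)) (by simp)).ne'
  have hK : ∀ m, ∃ K ⊆ F ⁻¹' {m}, IsCompact K ∧ (P.map ob) (F ⁻¹' {m} \ K) < ζ := fun m =>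
    (hF m).exists_isCompact_sdiff_lt (measure_ne_top _ _) hζ0
  choose K hKs hKc hKl using hK
  obtain ⟨η₀, hη₀, hsep₀⟩ := exists_sep R K hKc (fun m m' hmm => by
    rw [Set.disjoint_left]
    intro z hz hz'
    exact hmm ((show F z = m from hKs m hz).symm.trans (hKs m' hz')))
  obtain ⟨L, hL⟩ := exists_nat_ge (max 1 (r₁ / η₀))
  have hL1 : (1 : ℝ) ≤ L := (le_max_left _ _).trans hL
  set η : ℝ := r₁ / L with hηdef
  have hη : 0 < η := by positivity
  have hηη : η ≤ η₀ := by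
    have := (le_max_right _ _).trans hL
    rw [div_le_iff₀ hη₀] at this
    rw [hηdef, div_le_iff₀ (by positivity)]; linarith
  set C := goodCells q (2 * L + 1) with hC
  set B4 : Set ((Fin q → E) × E) :=
    {p | ∃ m ∈ R, obs p.1 p.2 ∈ K m ∧ p.2 ∈ G m ∧ cell η p.1 x₁ p.2 ∈ C} with hB4
  set B3 : Set ((Fin q → E) × E) := {p | p.2 ∈ ball x₁ r₁ ∧
    2 * (q : ℝ) ≤ ∑ l, |⟪p.1 l, r₁⁻¹ • (p.2 - x₁)⟫|} with hB3
  have hsub : (⋃ m ∈ R, Ev m) ⊆ (((⋃ m ∈ R, ob ⁻¹' (F ⁻¹' {m} \ K m)) ∪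
      Set.univ ×ˢ (ball x₁ r₁)ᶜ) ∪ B3) ∪ B4 := by
    intro p hp
    simp only [Set.mem_iUnion] at hp
    obtain ⟨m, hm, hp1, hp2⟩ := hp
    by_cases c1 : ob p ∈ K m
    swap
    · left; left; left
      simp only [Set.mem_iUnion]
      exact ⟨m, hm, hp1, c1⟩
    by_cases c2 : p.2 ∈ ball x₁ r₁
    swap
    · left; left; right
      exact ⟨trivial, c2⟩
    by_cases c3 : 2 * (q : ℝ) ≤ ∑ l, |⟪p.1 l, r₁⁻¹ • (p.2 - x₁)⟫|
    · left; right; exact ⟨c2, c3⟩
    right
    refine ⟨m, hm, c1, hp2, mem_goodCells ?_⟩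
    have h2 : ∀ l, (((cell η p.1 x₁ p.2 l).natAbs : ℕ) : ℝ) ≤
        L * |⟪p.1 l, r₁⁻¹ • (p.2 - x₁)⟫| + 1 := by
      intro l
      have h3 : ⟪p.1 l, p.2 - x₁⟫ / η = L * ⟪p.1 l, r₁⁻¹ • (p.2 - x₁)⟫ := by
        rw [real_inner_smul_right, hηdef]; field_simp
      rw [Nat.cast_natAbs, cell, h3, Int.cast_abs]
      set y := ⟪p.1 l, r₁⁻¹ • (p.2 - x₁)⟫
      have h4 := Int.floor_le ((L : ℝ) * y)
      have h5 := Int.lt_floor_add_one ((L : ℝ) * y)
      have h6 : (L : ℝ) * y ≤ L * |y| := by gcongr; exact le_abs_self y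
      have h7 : (L : ℝ) * (-y) ≤ L * |y| := by gcongr; exact neg_le_abs y
      rw [abs_le]; constructor <;> linarith
    have h3 : ((∑ l, (cell η p.1 x₁ p.2 l).natAbs : ℕ) : ℝ) ≤ ((2 * L + 1) * q : ℕ) := by
      push_cast
      calc _ ≤ ∑ l, (L * |⟪p.1 l, r₁⁻¹ • (p.2 - x₁)⟫| + 1) := by
            apply Finset.sum_le_sum
            intro l _
            exact_mod_cast h2 l
        _ = L * ∑ l, |⟪p.1 l, r₁⁻¹ • (p.2 - x₁)⟫| + q := by
            rw [Finset.sum_add_distrib, ← Finset.mul_sum]; simp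
        _ ≤ L * (2 * q) + q := by gcongr; exact (not_le.1 c3).le
        _ = _ := by ring
    exact_mod_cast h3
  have e1 : P (⋃ m ∈ R, ob ⁻¹' (F ⁻¹' {m} \ K m)) ≤ (2⁻¹ : ℝ≥0∞) ^ q := by
    refine (measure_biUnion_finset_le _ _).trans ?_
    calc _ ≤ ∑ m ∈ R, ζ := by
          apply Finset.sum_le_sum
          intro m _
          rw [← Measure.map_apply hobm ((hF m).diff (hKc m).measurableSet)]
          exact (hKl m).le
      _ = R.card * ζ := by simp
      _ ≤ (R.card + 1) * ζ := by gcongr; exact le_self_add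
      _ = _ := by rw [hζ, ENNReal.mul_div_cancel (by simp) (by simp)]
  have e2 : P (Set.univ ×ˢ (ball x₁ r₁)ᶜ) = 0 := by
    rw [hP, Measure.prod_prod, h.supp, mul_zero]
  have e3 : P B3 ≤ (2⁻¹ : ℝ≥0∞) ^ q := by
    have hm : MeasurableSet B3 :=
      (measurable_snd measurableSet_ball).inter (measurableSet_le
        (f := fun _ : (Fin q → E) × E => 2 * (q : ℝ))
        (g := fun p : (Fin q → E) × E => ∑ l, |⟪p.1 l, r₁⁻¹ • (p.2 - x₁)⟫|)
        (by fun_prop) (by fun_prop))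
    rw [hP, Measure.prod_apply_symm hm]
    calc _ ≤ ∫⁻ _, (2⁻¹ : ℝ≥0∞) ^ q ∂μ := by
          apply lintegral_mono
          intro θ
          by_cases hθ : θ ∈ ball x₁ r₁
          · refine le_trans (measure_mono ?_) (tail_le q (r₁⁻¹ • (θ - x₁)) ?_)
            · intro X hX; exact hX.2
            · rw [mem_ball, dist_eq_norm] at hθ
              rw [norm_smul, norm_inv, Real.norm_of_nonneg hr.le, inv_mul_le_iff₀ hr]
              linarith
          · have : (fun X => (X, θ)) ⁻¹' B3 = ∅ := by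
              ext X; simp only [hB3, Set.mem_preimage, Set.mem_ofPred_eq, hθ]; simp
            simp only [this]; simp
      _ = _ := by simp
  have e4 : P B4 ≤ (2⁻¹ : ℝ≥0∞) ^ q + (2⁻¹ : ℝ≥0∞) ^ q := by
    have hm : MeasurableSet B4 := by
      have : B4 = ⋃ m ∈ R, (ob ⁻¹' K m ∩ (Prod.snd ⁻¹' G m ∩
          (fun p : (Fin q → E) × E => cell η p.1 x₁ p.2) ⁻¹' (C : Set (Fin q → ℤ)))) := by
        ext p; simp only [hB4, hob, Set.mem_ofPred_eq, Set.mem_iUnion, Set.mem_inter_iff,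
          Set.mem_preimage, Finset.mem_coe, exists_prop]
      rw [this]
      exact Finset.measurableSet_biUnion _ fun m _ => (hobm (hKc m).measurableSet).inter
        ((measurable_snd (hGm m)).inter (measurable_cell η x₁ C.measurableSet))
    set tr : ℝ := ((48 * L : ℝ) ^ q)⁻¹ with htr
    have htr0 : 0 < tr := by positivity
    set t := ENNReal.ofReal tr with ht
    have ht0 : t ≠ 0 := by simp [ht, htr0]
    have hmm : ∀ m, Measurable fun p : (Fin q → E) × E =>
        (μ.restrict (G m)) (Slab η p.1 p.2) ^ q := fun m =>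
      (measurable_slab_measure η _).pow_const q
    rw [hP, Measure.prod_apply hm]
    calc _ ≤ ∫⁻ X, (C.card * t + t⁻¹ ^ q *
            ∑ m ∈ R, ∫⁻ θ₀ in G m, (μ.restrict (G m)) (Slab η X θ₀) ^ q ∂μ) ∂gpi E q := by
          apply lintegral_mono
          intro X
          exact cells_bound μ R K η hη
            (fun m hm m' hm' hmm z hz z' hz' => hηη.trans_lt (hsep₀ m hm m' hm' hmm z hz z' hz'))
            G X x₁ C t ht0 ENNReal.ofReal_ne_top q
      _ = C.card * t + t⁻¹ ^ q * ∑ m ∈ R, ∫⁻ θ₀ in G m,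
            ∫⁻ X, (μ.restrict (G m)) (Slab η X θ₀) ^ q ∂gpi E q ∂μ := by
          rw [lintegral_add_left measurable_const, lintegral_const_mul' _ _
            (ENNReal.pow_ne_top (ENNReal.inv_ne_top.2 ht0)), lintegral_finsetSum _
            (fun m _ => (hmm m).lintegral_prod_right')]
          simp only [lintegral_const, measure_univ, mul_one]
          congr 2
          apply Finset.sum_congr rfl
          intro m _
          exact lintegral_lintegral_swap (hmm m).aemeasurable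
      _ ≤ C.card * t + t⁻¹ ^ q * ∑ m ∈ R, ENNReal.ofReal ((240 * τ * η / r₁) ^ q) ^ q := by
          gcongr with m
          calc _ ≤ ∫⁻ θ₀ in G m, ENNReal.ofReal ((240 * τ * η / r₁) ^ q) ^ q ∂μ := by
                apply lintegral_mono
                intro θ₀
                have := h.slab_moment hq θ₀ τ hτ hτ1 (G m) (hG m) η hη q ⊥ Set.univ (by simp)
                  MeasurableSet.univ (fun _ _ _ _ => trivial)
                simpa using this
            _ ≤ ∫⁻ θ₀, ENNReal.ofReal ((240 * τ * η / r₁) ^ q) ^ q ∂μ :=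
                setLIntegral_le_lintegral _ _
            _ = _ := by simp
      _ ≤ _ := by
          have h2 : (2⁻¹ : ℝ≥0∞) ^ q = ENNReal.ofReal (2⁻¹ ^ q) := by
            rw [ENNReal.ofReal_pow (by norm_num), ENNReal.ofReal_inv_of_pos (by norm_num)]
            simp
          rw [h2]
          gcongr
          · rw [ht, ← ENNReal.ofReal_natCast, ← ENNReal.ofReal_mul (by positivity)]
            apply ENNReal.ofReal_le_ofReal
            have h3 := card_goodCells q (2 * L + 1) (by omega)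
            have h4 : (6 * (((2 * L + 1 : ℕ) : ℝ) + 1)) ^ q ≤ (24 * L : ℝ) ^ q := by
              apply pow_le_pow_left₀ (by positivity); push_cast; linarith
            calc _ ≤ (24 * L : ℝ) ^ q * tr := by gcongr; exact h3.trans h4
              _ = _ := by
                rw [htr, ← inv_pow, ← mul_pow]
                congr 1
                field_simp
                norm_num
          · rw [Finset.sum_const, nsmul_eq_mul, ht, ← ENNReal.ofReal_inv_of_pos htr0,
              ← ENNReal.ofReal_pow (by positivity), ← ENNReal.ofReal_pow (by positivity),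
              ← ENNReal.ofReal_natCast, ← ENNReal.ofReal_mul (by positivity),
              ← ENNReal.ofReal_mul (by positivity)]
            apply ENNReal.ofReal_le_ofReal
            refine le_trans (le_of_eq ?_) hR
            rw [htr, inv_inv, mul_left_comm, ← mul_pow, ← mul_pow]
            congr 3
            rw [hηdef]
            field_simp
            norm_num
  calc _ ≤ P (((⋃ m ∈ R, ob ⁻¹' (F ⁻¹' {m} \ K m)) ∪ Set.univ ×ˢ (ball x₁ r₁)ᶜ) ∪ B3) + P B4 :=
        (measure_mono hsub).trans (measure_union_le _ _)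
    _ ≤ ((P (⋃ m ∈ R, ob ⁻¹' (F ⁻¹' {m} \ K m)) + P (Set.univ ×ˢ (ball x₁ r₁)ᶜ)) + P B3) +
          P B4 := by
        gcongr
        refine (measure_union_le _ _).trans ?_
        gcongr
        exact measure_union_le _ _
    _ ≤ (((2⁻¹ : ℝ≥0∞) ^ q + 0) + (2⁻¹ : ℝ≥0∞) ^ q) +
          ((2⁻¹ : ℝ≥0∞) ^ q + (2⁻¹ : ℝ≥0∞) ^ q) := by
        rw [e2]; gcongr
    _ = _ := by ring

end Crest.Agent.R322
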