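import Crest.Agent.R322.Det

set_option autoImplicit false

namespace Crest.Agent.R322

open MeasureTheory ProbabilityTheory Metric Crest.StreamLearn
open scoped ENNReal NNReal RealInnerProductSpace

variable {d T M : ℕ}

/-- states with the stopping index -/
def St (L : RLearner d T M) : Type := L.St × Option ℕ

instance (L : RLearner d T M) : MeasurableSpace (St L) := ⊤
instance (L : RLearner d T M) : DiscreteMeasurableSpace (St L) := ⟨fun _ => trivial⟩
instance (L : RLearner d T M) : Countable (St L) := by
  let := L.fin
  exact inferInstanceAs (Countable (L.St × Option ℕ))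

/-- build a state -/
def St.mk {L : RLearner d T M} (q : L.St) (i : Option ℕ) : St L := (q, i)
/-- first component -/
def St.q {L : RLearner d T M} (s : St L) : L.St := s.1
/-- second component -/
def St.i {L : RLearner d T M} (s : St L) : Option ℕ := s.2

/-- the transition with a fixed seed -/
noncomputable def step (L : RLearner d T M) (ω : L.Ω) (t : ℕ) (s : St L) (x : E d) (y : ℝ) :
    St L :=
  if h : t < T then
    (if s.i.isSome then s else
      if (L.trans ⟨t, h⟩ ω s.q x y).2 then St.mk (L.trans ⟨t, h⟩ ω s.q x y).1 (some (t + 1))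
      else St.mk (L.trans ⟨t, h⟩ ω s.q x y).1 none)
  else s

/-- the output with a fixed seed -/
noncomputable def outp (L : RLearner d T M) (ω : L.Ω) (s : St L) : E d :=
  L.out (s.i.getD T) ω s.q

/-- the initial state -/
noncomputable def ini (L : RLearner d T M) (ω : L.Ω) : St L :=
  St.mk (L.init ω) (if L.stopFirst ω then some 0 else none)

open Classical in
/-- the reachable states -/
noncomputable def reach (L : RLearner d T M) : Finset (St L) :=
  ((@Finset.univ L.St L.fin) ×ˢ (insert none ((Finset.range (T + 1)).image some))).image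
    fun p => St.mk p.1 p.2

lemma mk_mem_reach (L : RLearner d T M) (q : L.St) (i : Option ℕ)
    (hi : ∀ n, i = some n → n ≤ T) : St.mk q i ∈ reach L := by
  classical
  unfold reach
  refine Finset.mem_image.2 ⟨(q, i), ?_, rfl⟩
  rw [Finset.mem_product]
  refine ⟨@Finset.mem_univ _ L.fin _, ?_⟩
  rcases i with _ | n
  · simp
  · have := hi n rfl
    simp only [Finset.mem_insert, reduceCtorEq, Finset.mem_image, Finset.mem_range,
      Option.some.injEq, exists_eq_right, false_or]
    omega

lemma card_reach (L : RLearner d T M) : (reach L).card ≤ 2 ^ M * (T + 2) := by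
  classical
  unfold reach
  refine Finset.card_image_le.trans ?_
  rw [Finset.card_product]
  apply Nat.mul_le_mul L.card_le
  refine (Finset.card_insert_le _ _).trans ?_
  have := Finset.card_image_le (s := Finset.range (T + 1)) (f := some)
  rw [Finset.card_range] at this
  omega

lemma ini_mem (L : RLearner d T M) (ω : L.Ω) : ini L ω ∈ reach L := by
  apply mk_mem_reach
  intro n hn
  split_ifs at hn
  simp only [Option.some.injEq] at hn
  omega

lemma step_mem (L : RLearner d T M) (ω : L.Ω) :
    ∀ t, ∀ s ∈ reach L, ∀ x y, step L ω t s x y ∈ reach L := by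
  intro t s hs x y
  unfold step
  split_ifs with h1 h2 h3
  · exact hs
  · apply mk_mem_reach
    intro n hn
    simp only [Option.some.injEq] at hn
    omega
  · apply mk_mem_reach
    intro n hn
    simp at hn
  · exact hs

lemma step_id (L : RLearner d T M) (ω : L.Ω) :
    ∀ t, T ≤ t → ∀ s x y, step L ω t s x y = s := by
  intro t ht s x y
  unfold step
  rw [dif_neg (by omega)]

lemma run_step (L : RLearner d T M) (ω : L.Ω) (θ : E d) (X : Fin T → E d) :
    run (step L ω) 0 T (ini L ω) (obs X θ) = L.run ω θ X := by
  unfold run RLearner.run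
  congr 1
  ext s t
  all_goals
    simp only [step, zero_add, t.isLt, dif_pos, obs]
    rfl

lemma measurable_step (L : RLearner d T M) (t : ℕ) (s : St L) :
    letI := L.mΩ
    Measurable fun p : L.Ω × (E d × ℝ) => step L p.1 t s p.2.1 p.2.2 := by
  let := L.mΩ
  unfold step
  by_cases h : t < T
  · simp only [dif_pos h]
    by_cases h2 : s.i.isSome
    · simp only [if_pos h2]
      exact measurable_const
    · simp only [if_neg h2]
      obtain ⟨h3, h4⟩ := L.trans_measurable ⟨t, h⟩ s.q
      refine Measurable.ite (h4 (measurableSet_singleton true)) ?_ ?_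
      · exact (@measurable_from_top L.St (St L) _ (fun q => St.mk q (some (t + 1)))).comp h3
      · exact (@measurable_from_top L.St (St L) _ (fun q => St.mk q none)).comp h3
  · simp only [dif_neg h]
    exact measurable_const

lemma measurable_step' (L : RLearner d T M) (ω : L.Ω) (t : ℕ) (s : St L) :
    Measurable fun p : E d × ℝ => step L ω t s p.1 p.2 := by
  let := L.mΩ
  exact (measurable_step L t s).comp (f := fun p : E d × ℝ => (ω, p)) measurable_prodMk_left

lemma measurable_ini (L : RLearner d T M) :
    letI := L.mΩ
    Measurable (ini L) := by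
  let := L.mΩ
  have : ini L = fun ω => if L.stopFirst ω = true then St.mk (L.init ω) (some 0)
      else St.mk (L.init ω) none := by
    ext ω
    unfold ini
    split_ifs <;> rfl
  rw [this]
  refine Measurable.ite (L.stopFirst_measurable (measurableSet_singleton true)) ?_ ?_
  · exact (@measurable_from_top L.St (St L) _ (fun q => St.mk q (some 0))).comp L.init_measurable
  · exact (@measurable_from_top L.St (St L) _ (fun q => St.mk q none)).comp L.init_measurable

lemma measurable_output (L : RLearner d T M) :
    letI := L.mΩ
    Measurable fun p : Sphere d × (L.Ω × (Fin T → E d)) =>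
      outp L p.2.1 (run (step L p.2.1) 0 T (ini L p.2.1) (obs p.2.2 p.1)) := by
  let := L.mΩ
  have h1 : Measurable fun p : Sphere d × (L.Ω × (Fin T → E d)) =>
      run (step L p.2.1) 0 T (ini L p.2.1) (obs p.2.2 p.1) := by
    apply measurable_foldl (fun (t : Fin T) s (p : Sphere d × (L.Ω × (Fin T → E d))) =>
      step L p.2.1 (0 + t) s ((obs p.2.2 (p.1 : E d)).1 t) ((obs p.2.2 (p.1 : E d)).2 t)) _ _
      (fun p => ini L p.2.1) ((measurable_ini L).comp (by fun_prop))
    intro t s
    exact (measurable_step L (0 + t) s).comp
      (f := fun p : Sphere d × (L.Ω × (Fin T → E d)) =>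
        (p.2.1, (p.2.2 t, ⟪p.2.2 t, (p.1 : E d)⟫))) (by fun_prop)
  have h2 : Measurable fun p : St L × L.Ω => outp L p.2 p.1 :=
    measurable_from_prod_countable_right fun s => L.out_measurable (s.i.getD T) s.q
  exact h2.comp (h1.prodMk (by fun_prop))

lemma successProb_le (L : RLearner d T M) (hd : 1 ≤ d) (ε b : ℝ) (hb : 0 ≤ b)
    (h : ∀ ω, succ (step L ω) (outp L ω) ε T (ini L ω) ≤ ENNReal.ofReal b) :
    L.successProb ε ≤ b := by
  let := L.mΩ
  have := L.prob
  have := prob_sphereUniform hd
  unfold RLearner.successProb
  set Z : Set (Sphere d × (L.Ω × (Fin T → E d))) :=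
    {p | Real.arccos (inner ℝ (L.output p.2.1 p.1 p.2.2) (p.1 : E d)) ≤ ε} with hZ
  have hout : ∀ (ω : L.Ω) (θ : E d) (X : Fin T → E d), L.output ω θ X =
      outp L ω (run (step L ω) 0 T (ini L ω) (obs X θ)) := by
    intro ω θ X
    rw [run_step]
    rfl
  have hZm : MeasurableSet Z := by
    simp only [hZ, hout]
    apply measurableSet_le _ measurable_const
    exact Real.continuous_arccos.measurable.comp
      ((measurable_output L).inner (by fun_prop))
  apply ENNReal.toReal_le_of_le_ofReal hb
  have hF : Measurable (Z.indicator (fun _ => (1 : ℝ≥0∞))) := measurable_const.indicator hZm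
  rw [← lintegral_indicator_one hZm]
  change ∫⁻ a, Z.indicator (fun _ => (1 : ℝ≥0∞)) a ∂_ ≤ _
  rw [lintegral_prod _ hF.aemeasurable]
  have h1 : ∀ θ : Sphere d, ∫⁻ y, Z.indicator (fun _ => (1 : ℝ≥0∞)) (θ, y) ∂(L.ρ.prod (gpi (E d) T)) =
      ∫⁻ ω, ∫⁻ X, Z.indicator (fun _ => (1 : ℝ≥0∞)) (θ, (ω, X)) ∂(gpi (E d) T) ∂L.ρ := by
    intro θ
    exact lintegral_prod _ (hF.comp measurable_prodMk_left).aemeasurable
  simp_rw [h1]
  rw [lintegral_lintegral_swap]
  · calc _ ≤ ∫⁻ _, ENNReal.ofReal b ∂L.ρ := by
          apply lintegral_mono
          intro ω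
          refine le_trans (le_of_eq ?_) (h ω)
          simp only
          rw [succ, sig, lintegral_map _ measurable_subtype_coe]
          · congr 1
            ext θ
            rw [U]
            congr 1
            ext X
            have hθ : ‖(θ : E d)‖ = 1 := by simp
            simp only [Set.indicator, hZ, hout, good, hθ, Set.mem_ofPred_eq, true_and, Pi.one_apply]
          · exact measurable_U (measurable_step' L ω) (reach L) (step_mem L ω) _
              (fun m => measurable_one.indicator (measurableSet_good ε _)) _ _ _ (ini_mem L ω)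
      _ = _ := by simp
  · apply Measurable.aemeasurable
    exact (hF.comp (f := fun p : (Sphere d × L.Ω) × (Fin T → E d) => (p.1.1, (p.1.2, p.2)))
      (by fun_prop)).lintegral_prod_right'

end Crest.Agent.R322
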