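import Crest.Agent.R322.Stream

set_option autoImplicit false

namespace Crest.Agent.R322

open MeasureTheory ProbabilityTheory Metric
open scoped ENNReal NNReal RealInnerProductSpace

variable {E : Type*} [NormedAddCommGroup E] [InnerProductSpace ℝ E] [FiniteDimensional ℝ E]
  [MeasurableSpace E] [BorelSpace E]
variable {S : Type*}

/-- growth bound on balls -/
def Grow (ν : Measure E) (K : ℝ) (D : ℕ) : Prop :=
  ∀ x r, 0 < r → ν (ball x r) ≤ ENNReal.ofReal (K * r ^ D)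

/-- the inductive claim -/
def Claim (f : ℕ → S → E → ℝ → S) (g : S → E → ℝ≥0∞) (R : Finset S) (q D ℓ : ℕ) (a b : ℝ) :
    Prop :=
  ∀ t₀, ∀ s ∈ R, ∀ ν : Measure E, IsFiniteMeasure ν → ∀ K : ℝ, 0 ≤ K → ∀ (x₀ : E) (r₀ : ℝ),
    0 < r₀ → Grow ν K D → ν (ball x₀ r₀)ᶜ = 0 →
      ∫⁻ θ, U f g t₀ ℓ s θ ∂ν ≤
        ENNReal.ofReal b * ν Set.univ + ENNReal.ofReal (a * K * r₀ ^ (3 * q))

variable [MeasurableSpace S] [Countable S] [DiscreteMeasurableSpace S]

lemma piece_step {f : ℕ → S → E → ℝ → S}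
    (hf : ∀ t s, Measurable fun p : E × ℝ => f t s p.1 p.2) (R : Finset S)
    (hR : ∀ t, ∀ s ∈ R, ∀ x y, f t s x y ∈ R) {g : S → E → ℝ≥0∞} (hg : ∀ m, Measurable (g m))
    (hg1 : ∀ m θ, g m θ ≤ 1) {q D ℓ : ℕ} (hq : 1 ≤ q) {a b : ℝ} (ha : 0 ≤ a) (hb : 0 ≤ b)
    (hC : Claim f g R q D ℓ a b) (τ : ℝ) (hτ : 0 < τ) (hτ1 : τ ≤ 1)
    (hcard : (R.card : ℝ) * ((11520 * τ) ^ q) ^ q ≤ 2⁻¹ ^ q)
    (t₀ : ℕ) (s : S) (hs : s ∈ R) (ν : Measure E) [IsFiniteMeasure ν] (hν : ν Set.univ ≠ 0)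
    (K : ℝ) (hK : 0 ≤ K) (hG : Grow ν K D) (x₁ : E) (r₁ : ℝ)
    (hF : Frost ((ν Set.univ)⁻¹ • ν) x₁ r₁ q) :
    ∫⁻ θ, U f g t₀ (q + ℓ) s θ ∂ν ≤ ENNReal.ofReal (b + 4 * 2⁻¹ ^ q) * ν Set.univ +
      ENNReal.ofReal (a * (τ ^ (2 * q))⁻¹ * K * r₁ ^ (3 * q)) := by
  have hr := hF.pos
  set P := ν Set.univ with hP
  have hPt : P ≠ ⊤ := measure_ne_top _ _
  set μ := P⁻¹ • ν with hμ
  have : IsProbabilityMeasure μ :=
    ⟨by rw [hμ, Measure.smul_apply, smul_eq_mul, ENNReal.inv_mul_cancel hν hPt]⟩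
  have hνμ : ν = P • μ := by
    rw [hμ, smul_smul, ENNReal.mul_inv_cancel hν hPt, one_smul]
  have hsupp : ν (ball x₁ r₁)ᶜ = 0 := by
    rw [hνμ, Measure.smul_apply, hF.supp]; simp
  set φ : S → E → ℝ≥0∞ := fun m => phi f t₀ q s m with hφ
  have hφm : ∀ m, Measurable (φ m) := fun m => measurable_phi hf t₀ q s m
  have hφ1 : ∀ m θ, φ m θ ≤ 1 := fun m θ => prob_le_one
  set p : S → ℝ≥0∞ := fun m => ∫⁻ θ, φ m θ ∂μ with hp
  have hp1 : ∀ m, p m ≤ 1 := fun m => by
    calc p m ≤ ∫⁻ _, 1 ∂μ := lintegral_mono (hφ1 m)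
      _ = 1 := by simp
  have hpt : ∀ m, p m ≠ ⊤ := fun m => ne_top_of_le_ne_top ENNReal.one_ne_top (hp1 m)
  have hsum : ∀ ν' : Measure E, ∑ m ∈ R, ∫⁻ θ, φ m θ ∂ν' = ν' Set.univ := by
    intro ν'
    rw [← lintegral_finsetSum _ fun m _ => hφm m]
    simp only [hφ]
    simp_rw [sum_phi hf R hR t₀ q s hs]
    simp
  set Λ : ℝ := (τ ^ (2 * q))⁻¹ with hΛ
  have hΛ0 : 0 < Λ := by positivity
  set G : S → Set E := fun m => {θ | ENNReal.ofReal Λ * p m < φ m θ} with hGdef
  have hGm : ∀ m, MeasurableSet (G m) := fun m => measurableSet_lt measurable_const (hφm m)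
  have hGμ : ∀ m, μ (G m) ≤ ENNReal.ofReal (τ ^ (2 * q)) := by
    intro m
    by_cases h0 : p m = 0
    · have h1 : φ m =ᵐ[μ] 0 := (lintegral_eq_zero_iff (hφm m)).1 h0
      have : μ (G m) = 0 := by
        apply measure_mono_null _ (ae_iff.1 h1)
        intro θ hθ h2
        simp only [hGdef, Set.mem_ofPred_eq, h0, mul_zero] at hθ
        exact hθ.ne' h2
      rw [this]; exact zero_le
    · have h1 := mul_meas_ge_le_lintegral (μ := μ) (hφm m) (ENNReal.ofReal Λ * p m)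
      have h2 : ENNReal.ofReal Λ * p m * μ (G m) ≤ p m :=
        le_trans (by gcongr; intro θ hθ; exact le_of_lt (show ENNReal.ofReal Λ * p m < φ m θ from hθ)) h1
      have h3 : p m * (ENNReal.ofReal Λ * μ (G m)) ≤ p m * 1 := by
        rw [mul_one]; refine le_trans (le_of_eq ?_) h2; ring
      have h4 := (ENNReal.mul_le_mul_iff_right h0 (hpt m)).1 h3
      calc μ (G m) = ENNReal.ofReal (τ ^ (2 * q)) * (ENNReal.ofReal Λ * μ (G m)) := by
            rw [← mul_assoc, ← ENNReal.ofReal_mul (by positivity), hΛ,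
              mul_inv_cancel₀ (by positivity)]; simp
        _ ≤ ENNReal.ofReal (τ ^ (2 * q)) * 1 := by gcongr
        _ = _ := mul_one _
  have hguess := guess hq R (run f t₀ q s)
    (fun m => measurable_run hf t₀ q s (measurableSet_singleton m)) μ hF τ hτ hτ1 G hGm hGμ hcard
  set ν' : S → Measure E := fun m => (ν.restrict (G m)ᶜ).withDensity (φ m) with hν'
  have hν'le : ∀ m A, MeasurableSet A → ν' m A ≤ ENNReal.ofReal Λ * p m * ν A := by
    intro m A hA
    simp only [hν']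
    rw [withDensity_apply _ hA, Measure.restrict_restrict hA]
    calc ∫⁻ θ in A ∩ (G m)ᶜ, φ m θ ∂ν ≤ ∫⁻ θ in A ∩ (G m)ᶜ, ENNReal.ofReal Λ * p m ∂ν := by
          apply setLIntegral_mono' (hA.inter (hGm m).compl)
          intro θ hθ
          exact not_lt.1 hθ.2
      _ = ENNReal.ofReal Λ * p m * ν (A ∩ (G m)ᶜ) := setLIntegral_const _ _
      _ ≤ _ := by gcongr; exact Set.inter_subset_left
  have hterm : ∀ m ∈ R, ∫⁻ θ, φ m θ * U f g (t₀ + q) ℓ m θ ∂ν ≤
      P * ∫⁻ θ in G m, φ m θ ∂μ + (ENNReal.ofReal b * ∫⁻ θ, φ m θ ∂ν +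
        p m * ENNReal.ofReal (a * Λ * K * r₁ ^ (3 * q))) := by
    intro m hm
    rw [← lintegral_add_compl _ (hGm m)]
    apply add_le_add
    · calc ∫⁻ θ in G m, φ m θ * U f g (t₀ + q) ℓ m θ ∂ν ≤ ∫⁻ θ in G m, φ m θ ∂ν := by
            apply lintegral_mono
            intro θ
            exact mul_le_of_le_one_right' (U_le_one f g hg1 _ _ _ _)
        _ = _ := by
            conv_lhs => rw [hνμ]
            rw [Measure.restrict_smul, lintegral_smul_measure, smul_eq_mul]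
    · have hfin : IsFiniteMeasure (ν' m) := ⟨(hν'le m _ MeasurableSet.univ).trans_lt
        (ENNReal.mul_lt_top (ENNReal.mul_lt_top ENNReal.ofReal_lt_top (hpt m).lt_top)
          (measure_lt_top _ _))⟩
      have h1 := hC (t₀ + q) m hm (ν' m) hfin (Λ * (p m).toReal * K) (by positivity) x₁ r₁ hr
        (by
          intro x r hr'
          refine (hν'le m _ measurableSet_ball).trans ?_
          calc _ ≤ ENNReal.ofReal Λ * p m * ENNReal.ofReal (K * r ^ D) := by
                gcongr; exact hG x r hr'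
            _ = _ := by
                conv_lhs => rw [← ENNReal.ofReal_toReal (hpt m)]
                rw [← ENNReal.ofReal_mul hΛ0.le, ← ENNReal.ofReal_mul (by positivity)]
                congr 1; ring)
        (by
          have := hν'le m _ (measurableSet_ball (x := x₁) (ε := r₁)).compl
          rw [hsupp, mul_zero] at this
          exact le_zero_iff.1 this)
      simp only [hν'] at h1
      rw [lintegral_withDensity_eq_lintegral_mul _ (hφm m)
        (measurable_U hf R hR g hg _ _ m hm)] at h1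
      refine h1.trans (add_le_add ?_ (le_of_eq ?_))
      · gcongr
        rw [withDensity_apply _ MeasurableSet.univ, Measure.restrict_univ]
        exact setLIntegral_le_lintegral _ _
      · conv_rhs => rw [← ENNReal.ofReal_toReal (hpt m)]
        rw [← ENNReal.ofReal_mul (by positivity)]
        congr 1; ring
  calc ∫⁻ θ, U f g t₀ (q + ℓ) s θ ∂ν
      = ∑ m ∈ R, ∫⁻ θ, φ m θ * U f g (t₀ + q) ℓ m θ ∂ν := by
        rw [← lintegral_finsetSum (f := fun m θ => φ m θ * U f g (t₀ + q) ℓ m θ) _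
          fun m hm => (hφm m).mul (measurable_U hf R hR g hg _ _ m hm)]
        congr 1
        ext θ
        rw [U_add hf, U_eq_sum hf R hR _ _ _ s hs]
    _ ≤ ∑ m ∈ R, (P * ∫⁻ θ in G m, φ m θ ∂μ + (ENNReal.ofReal b * ∫⁻ θ, φ m θ ∂ν +
        p m * ENNReal.ofReal (a * Λ * K * r₁ ^ (3 * q)))) := Finset.sum_le_sum hterm
    _ = P * ∑ m ∈ R, ∫⁻ θ in G m, φ m θ ∂μ + (ENNReal.ofReal b * P +
        ENNReal.ofReal (a * Λ * K * r₁ ^ (3 * q))) := by
        rw [Finset.sum_add_distrib, Finset.sum_add_distrib, ← Finset.mul_sum, ← Finset.mul_sum,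
          ← Finset.sum_mul, hsum ν, hsum μ]
        simp [hP]
    _ ≤ P * (4 * (2⁻¹ : ℝ≥0∞) ^ q) + (ENNReal.ofReal b * P +
        ENNReal.ofReal (a * Λ * K * r₁ ^ (3 * q))) := by gcongr; exact hguess
    _ = _ := by
        have h2 : ENNReal.ofReal (4 * 2⁻¹ ^ q) = 4 * (2⁻¹ : ℝ≥0∞) ^ q := by
          rw [ENNReal.ofReal_mul (by norm_num), ENNReal.ofReal_pow (by norm_num),
            ENNReal.ofReal_inv_of_pos (by norm_num)]
          simp
        rw [ENNReal.ofReal_add hb (by positivity), h2]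
        ring

omit [InnerProductSpace ℝ E] [FiniteDimensional ℝ E] [BorelSpace E] in
/-- a ball that nearly maximises `ν(B) / r ^ γ` -/
lemma exists_near_max (ν : Measure E) [IsFiniteMeasure ν] (K : ℝ) (hK : 0 ≤ K) {γ D : ℕ}
    (hγ : γ ≤ D) (hG : Grow ν K D) (x₀ : E) (r₀ : ℝ) (hr₀ : 0 < r₀)
    (h0 : 0 < ν.real (ball x₀ r₀)) :
    ∃ x₁ r₁, 0 < r₁ ∧ ∀ x r, 0 < r →
      ν.real (ball x r) / r ^ γ ≤ 2 * (ν.real (ball x₁ r₁) / r₁ ^ γ) := by
  set T : Set ℝ := {y | ∃ x r, 0 < r ∧ y = ν.real (ball x r) / r ^ γ} with hT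
  have hbdd : BddAbove T := by
    refine ⟨max K (ν.real Set.univ), ?_⟩
    rintro y ⟨x, r, hr, rfl⟩
    rw [div_le_iff₀ (by positivity)]
    rcases le_total r 1 with h1 | h1
    · calc ν.real (ball x r) ≤ K * r ^ D :=
            ENNReal.toReal_le_of_le_ofReal (by positivity) (hG x r hr)
        _ ≤ K * r ^ γ := by gcongr _ * ?_; exact pow_le_pow_of_le_one hr.le h1 hγ
        _ ≤ _ := by gcongr; exact le_max_left _ _
    · calc ν.real (ball x r) ≤ ν.real Set.univ := measureReal_mono (Set.subset_univ _)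
        _ ≤ max K (ν.real Set.univ) * 1 := by rw [mul_one]; exact le_max_right _ _
        _ ≤ _ := by gcongr; exact one_le_pow₀ h1
  have hmem : ν.real (ball x₀ r₀) / r₀ ^ γ ∈ T := ⟨x₀, r₀, hr₀, rfl⟩
  have hpos : 0 < sSup T := lt_of_lt_of_le (by positivity) (le_csSup hbdd hmem)
  obtain ⟨y, ⟨x₁, r₁, hr₁, rfl⟩, hy⟩ := exists_lt_of_lt_csSup ⟨_, hmem⟩ (half_lt_self hpos)
  refine ⟨x₁, r₁, hr₁, fun x r hr => ?_⟩
  have := le_csSup hbdd (show ν.real (ball x r) / r ^ γ ∈ T from ⟨x, r, hr, rfl⟩)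
  linarith

lemma claim_step {f : ℕ → S → E → ℝ → S}
    (hf : ∀ t s, Measurable fun p : E × ℝ => f t s p.1 p.2) (R : Finset S)
    (hR : ∀ t, ∀ s ∈ R, ∀ x y, f t s x y ∈ R) {g : S → E → ℝ≥0∞} (hg : ∀ m, Measurable (g m))
    (hg1 : ∀ m θ, g m θ ≤ 1) {q D ℓ : ℕ} (hq : 1 ≤ q) (hD : 3 * q + 1 ≤ D) {a b : ℝ}
    (ha : 0 < a) (hb : 0 ≤ b)
    (hC : Claim f g R q D ℓ a b) (τ : ℝ) (hτ : 0 < τ) (hτ1 : τ ≤ 1)
    (hcard : (R.card : ℝ) * ((11520 * τ) ^ q) ^ q ≤ 2⁻¹ ^ q) :
    Claim f g R q D (q + ℓ) (a * (2 / τ ^ 2) ^ q) (b + 6 * 2⁻¹ ^ q) := by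
  intro t₀ s hs ν hν K hK x₀ r₀ hr₀ hG hsupp
  set a' := a * (2 / τ ^ 2) ^ q with ha'
  have ha'0 : 0 < a' := by positivity
  rcases hK.eq_or_lt with rfl | hK0
  · have h1 : ν Set.univ = 0 := by
      have h2 := hG x₀ r₀ hr₀
      simp only [zero_mul, ENNReal.ofReal_zero, nonpos_iff_eq_zero] at h2
      rw [← measure_add_measure_compl (measurableSet_ball (x := x₀) (ε := r₀)), h2, hsupp]; simp
    rw [Measure.measure_univ_eq_zero.1 h1]; simp
  set mn : ℝ := a' * K / 2 * (min 1 (a' / 2)) ^ (3 * q) with hmn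
  have hmn0 : 0 < mn := by positivity
  have key : ∀ n : ℕ, ∀ ν : Measure E, IsFiniteMeasure ν → Grow ν K D → ν (ball x₀ r₀)ᶜ = 0 →
      ν.real Set.univ ≤ n * mn → ∫⁻ θ, U f g t₀ (q + ℓ) s θ ∂ν ≤
        ENNReal.ofReal (b + 6 * 2⁻¹ ^ q) * ν Set.univ +
          ENNReal.ofReal (a' * K * r₀ ^ (3 * q)) := by
    intro n
    have easy : ∀ ν : Measure E, IsFiniteMeasure ν → ν.real Set.univ ≤ a' * K * r₀ ^ (3 * q) →
        ∫⁻ θ, U f g t₀ (q + ℓ) s θ ∂ν ≤ ENNReal.ofReal (b + 6 * 2⁻¹ ^ q) * ν Set.univ +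
          ENNReal.ofReal (a' * K * r₀ ^ (3 * q)) := by
      intro ν hν h
      refine le_trans ?_ le_add_self
      calc ∫⁻ θ, U f g t₀ (q + ℓ) s θ ∂ν ≤ ∫⁻ _, 1 ∂ν :=
            lintegral_mono fun θ => U_le_one f g hg1 _ _ _ _
        _ = ENNReal.ofReal (ν.real Set.univ) := by simp
        _ ≤ _ := ENNReal.ofReal_le_ofReal h
    induction n with
    | zero =>
      intro ν hν _ _ h
      exact easy ν hν (h.trans (by simp only [Nat.cast_zero, zero_mul]; positivity))
    | succ n ih =>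
      intro ν hν hG hsupp h
      by_cases hsm : ν.real Set.univ ≤ a' * K * r₀ ^ (3 * q)
      · exact easy ν hν hsm
      push Not at hsm
      have hball : ν.real (ball x₀ r₀) = ν.real Set.univ := by
        rw [← measureReal_add_measureReal_compl (measurableSet_ball (x := x₀) (ε := r₀))]
        simp [Measure.real, hsupp]
      obtain ⟨x₁, r₁, hr₁, hmax⟩ := exists_near_max ν K hK (γ := 3 * q) (by omega) hG x₀ r₀ hr₀
        (by rw [hball]; exact lt_of_le_of_lt (by positivity) hsm)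
      set P₁ := ν.real (ball x₁ r₁) with hP₁
      have h1 : a' * K * r₁ ^ (3 * q) ≤ 2 * P₁ := by
        have h2 := hmax x₀ r₀ hr₀
        rw [hball] at h2
        have h3 : a' * K ≤ ν.real Set.univ / r₀ ^ (3 * q) := by
          rw [le_div_iff₀ (by positivity)]; exact hsm.le
        have h4 := h3.trans h2
        rwa [← mul_div_assoc, le_div_iff₀ (by positivity)] at h4
      have hP₁0 : 0 < P₁ := by
        have : 0 < a' * K * r₁ ^ (3 * q) := by positivity
        linarith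
      have h2 : min 1 (a' / 2) ≤ r₁ := by
        by_contra hlt
        push Not at hlt
        have h3 : r₁ < 1 := hlt.trans_le (min_le_left _ _)
        have h4 : r₁ < a' / 2 := hlt.trans_le (min_le_right _ _)
        have h5 : P₁ ≤ K * r₁ ^ D := ENNReal.toReal_le_of_le_ofReal (by positivity) (hG x₁ r₁ hr₁)
        have h6 : r₁ ^ D ≤ r₁ ^ (3 * q) * r₁ := by
          rw [← pow_succ]; exact pow_le_pow_of_le_one hr₁.le h3.le hD
        have h7 : 0 < K * r₁ ^ (3 * q) := by positivity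
        have h8 : K * r₁ ^ D ≤ K * (r₁ ^ (3 * q) * r₁) := by gcongr
        nlinarith
      have h3 : mn ≤ P₁ := by
        calc mn ≤ a' * K / 2 * r₁ ^ (3 * q) := by rw [hmn]; gcongr
          _ ≤ P₁ := by linarith
      have hB := measurableSet_ball (x := x₁) (ε := r₁)
      have huniv : (ν.restrict (ball x₁ r₁)) Set.univ = ENNReal.ofReal P₁ := by simp [hP₁]
      have hpiece := piece_step hf R hR hg hg1 hq ha.le hb hC τ hτ hτ1 hcard t₀ s hs
        (ν.restrict (ball x₁ r₁)) (by rw [huniv]; simp [hP₁0]) K hK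
        (fun x r hr => (Measure.restrict_le_self _).trans (hG x r hr)) x₁ r₁
        ⟨hr₁, by simp [Measure.restrict_apply hB.compl], by
          intro x ρ hρ
          rw [huniv, Measure.smul_apply, smul_eq_mul, ← ENNReal.ofReal_inv_of_pos hP₁0]
          calc _ ≤ ENNReal.ofReal P₁⁻¹ * ENNReal.ofReal (ν.real (ball x ρ)) := by
                gcongr
                rw [ofReal_measureReal]
                exact Measure.restrict_le_self _
            _ ≤ _ := by
                rw [← ENNReal.ofReal_mul (by positivity)]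
                apply ENNReal.ofReal_le_ofReal
                have h4 := hmax x ρ hρ
                rw [div_le_iff₀ (by positivity)] at h4
                rw [inv_mul_le_iff₀ hP₁0, div_pow]
                refine h4.trans (le_of_eq ?_)
                ring⟩
      have hrest := ih (ν.restrict (ball x₁ r₁)ᶜ) inferInstance
        (fun x r hr => (Measure.restrict_le_self _).trans (hG x r hr))
        (le_zero_iff.1 ((Measure.restrict_le_self _).trans hsupp.le))
        (by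
          have h4 := measureReal_add_measureReal_compl (μ := ν) hB
          rw [measureReal_restrict_apply_univ]
          push_cast at h
          linarith)
      rw [← lintegral_add_compl _ hB, ← measure_add_measure_compl hB, mul_add, add_assoc]
      refine add_le_add (hpiece.trans ?_) (by simpa using hrest)
      rw [huniv, ← ofReal_measureReal, ← hP₁, ← ENNReal.ofReal_mul (by positivity),
        ← ENNReal.ofReal_mul (by positivity),
        ← ENNReal.ofReal_add (by positivity) (by positivity)]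
      apply ENNReal.ofReal_le_ofReal
      have h5 : a * (τ ^ (2 * q))⁻¹ = a' * 2⁻¹ ^ q := by
        rw [ha', pow_mul, ← inv_pow, mul_assoc, ← mul_pow]
        congr 2
        field_simp
      have h6 : (0 : ℝ) < 2⁻¹ ^ q := by positivity
      rw [h5]
      nlinarith
  obtain ⟨n, hn⟩ := exists_nat_ge (ν.real Set.univ / mn)
  exact key n ν hν hG hsupp (by rwa [div_le_iff₀ hmn0] at hn)

omit [MeasurableSpace S] [Countable S] [DiscreteMeasurableSpace S] in
lemma claim_zero (f : ℕ → S → E → ℝ → S) (R : Finset S) (W : S → Set E) (o : S → E) (ε : ℝ)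
    (hε : 0 < ε) (hε1 : ε ≤ 1) (hW : ∀ m, W m ⊆ ball (o m) ε) {q D : ℕ} (hD : 4 * q ≤ D) :
    Claim f (fun m => (W m).indicator 1) R q D 0 (ε ^ q) 0 := by
  intro t₀ s _ ν hν K hK x₀ r₀ hr₀ hG hsupp
  simp_rw [U_zero]
  have h1 : ∫⁻ θ, (W s).indicator 1 θ ∂ν ≤ ν (ball (o s) ε) := by
    rw [← lintegral_indicator_one measurableSet_ball]
    exact lintegral_mono fun θ => Set.indicator_le_indicator_of_subset (hW s) (fun _ => zero_le) θ
  refine h1.trans (le_trans ?_ le_add_self)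
  obtain ⟨e, rfl⟩ := Nat.exists_eq_add_of_le hD
  have key : ∀ r : ℝ, 0 < r → r ≤ ε → r ≤ r₀ → K * r ^ (4 * q + e) ≤ ε ^ q * K * r₀ ^ (3 * q) := by
    intro r h0 h1 h2
    have h3 : r ^ e ≤ 1 := pow_le_one₀ h0.le (h1.trans hε1)
    calc K * r ^ (4 * q + e) = r ^ q * K * r ^ (3 * q) * r ^ e := by ring
      _ ≤ ε ^ q * K * r₀ ^ (3 * q) * 1 := by gcongr
      _ = _ := mul_one _
  rcases le_total ε r₀ with h | h
  · exact (hG _ ε hε).trans (ENNReal.ofReal_le_ofReal (key ε hε le_rfl h))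
  · calc ν (ball (o s) ε) ≤ ν Set.univ := measure_mono (Set.subset_univ _)
      _ = ν (ball x₀ r₀) := by
        rw [← measure_add_measure_compl (measurableSet_ball (x := x₀) (ε := r₀)), hsupp]; simp
      _ ≤ _ := (hG _ r₀ hr₀).trans (ENNReal.ofReal_le_ofReal (key r₀ hr₀ h le_rfl))

theorem claim_all {f : ℕ → S → E → ℝ → S}
    (hf : ∀ t s, Measurable fun p : E × ℝ => f t s p.1 p.2) (R : Finset S)
    (hR : ∀ t, ∀ s ∈ R, ∀ x y, f t s x y ∈ R) (W : S → Set E) (hWm : ∀ m, MeasurableSet (W m))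
    (o : S → E) (ε : ℝ) (hε : 0 < ε) (hε1 : ε ≤ 1) (hW : ∀ m, W m ⊆ ball (o m) ε) {q D : ℕ}
    (hq : 1 ≤ q) (hD : 4 * q ≤ D) (τ : ℝ) (hτ : 0 < τ) (hτ1 : τ ≤ 1)
    (hcard : (R.card : ℝ) * ((11520 * τ) ^ q) ^ q ≤ 2⁻¹ ^ q) (j : ℕ) :
    Claim f (fun m => (W m).indicator 1) R q D (j * q) ((ε * (2 / τ ^ 2) ^ j) ^ q)
      (j * (6 * 2⁻¹ ^ q)) := by
  induction j with
  | zero => simpa using claim_zero f R W o ε hε hε1 hW hD
  | succ j ih =>
    have := claim_step hf R hR (fun m => measurable_one.indicator (hWm m))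
      (fun m θ => Set.indicator_le_self' (fun _ _ => zero_le) θ) hq (by omega)
      (by positivity) (by positivity) ih τ hτ hτ1 hcard
    convert this using 1
    · ring
    · rw [← mul_pow, pow_succ, mul_assoc]
    · push_cast; ring

end Crest.Agent.R322
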