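import Crest.Agent.R322.Main
import Crest.Prelude.Def_StreamLearn

set_option autoImplicit false

namespace Crest.Agent.R322

open MeasureTheory ProbabilityTheory Metric Crest.StreamLearn
open scoped ENNReal NNReal RealInnerProductSpace Pointwise

/-- the uniform law of the signal, as a measure on the ambient space -/
noncomputable def sig (d : ℕ) : Measure (E d) := (sphereUniform d).map Subtype.val

lemma vol_ball_ne (d : ℕ) : (volume : Measure (E d)) (ball 0 1) ≠ 0 ∧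
    (volume : Measure (E d)) (ball 0 1) ≠ ⊤ :=
  ⟨(measure_ball_pos _ _ one_pos).ne', measure_ball_lt_top.ne⟩

lemma prob_sphereUniform {d : ℕ} (hd : 1 ≤ d) : IsProbabilityMeasure (sphereUniform d) := by
  constructor
  rw [sphereUniform, Measure.smul_apply, smul_eq_mul]
  apply ENNReal.inv_mul_cancel
  · rw [Measure.toSphere_apply_univ]
    refine mul_ne_zero ?_ (vol_ball_ne d).1
    simp; omega
  · exact measure_ne_top _ _

lemma prob_sig {d : ℕ} (hd : 1 ≤ d) : IsProbabilityMeasure (sig d) :=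
  haveI := prob_sphereUniform hd
  Measure.isProbabilityMeasure_map measurable_subtype_coe.aemeasurable

lemma sig_apply {d : ℕ} (hd : 1 ≤ d) {A : Set (E d)} (hA : MeasurableSet A) :
    sig d A = (volume (ball (0 : E d) 1))⁻¹ *
      volume (Set.Ioo (0 : ℝ) 1 • (A ∩ sphere (0 : E d) 1)) := by
  rw [sig, Measure.map_apply measurable_subtype_coe hA, sphereUniform, Measure.smul_apply,
    smul_eq_mul, Measure.toSphere_apply' _ (measurable_subtype_coe hA),
    Measure.toSphere_apply_univ, Subtype.image_preimage_coe, Set.inter_comm]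
  have h1 : ((Module.finrank ℝ (E d) : ℕ) : ℝ≥0∞) ≠ 0 := by simp; omega
  rw [ENNReal.mul_inv (Or.inl h1) (Or.inl (by simp)), mul_mul_mul_comm,
    ENNReal.inv_mul_cancel h1 (by simp), one_mul]

lemma sig_supp {d : ℕ} : sig d (ball 0 2)ᶜ = 0 := by
  rw [sig, Measure.map_apply measurable_subtype_coe measurableSet_ball.compl]
  have : (Subtype.val : Sphere d → E d) ⁻¹' (ball 0 2)ᶜ = ∅ := by
    ext x
    simp
  rw [this]; simp

lemma sig_reflect {d : ℕ} (hd : 1 ≤ d) (T : E d ≃ₗᵢ[ℝ] E d) {A : Set (E d)}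
    (hA : MeasurableSet A) : sig d (T ⁻¹' A) = sig d A := by
  rw [sig_apply hd hA, sig_apply hd (T.continuous.measurable hA)]
  congr 1
  rw [← T.measurePreserving.measure_preimage_emb T.toHomeomorph.measurableEmbedding
    (Set.Ioo (0 : ℝ) 1 • (A ∩ sphere (0 : E d) 1))]
  congr 1
  ext x
  simp only [Set.mem_preimage, Set.mem_smul, Set.mem_inter_iff, mem_sphere_zero_iff_norm]
  constructor
  · rintro ⟨t, ht, y, ⟨hy1, hy2⟩, rfl⟩
    exact ⟨t, ht, T y, ⟨hy1, by simpa using hy2⟩, by simp⟩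
  · rintro ⟨t, ht, y, ⟨hy1, hy2⟩, h⟩
    refine ⟨t, ht, T.symm y, ⟨by simpa using hy1, by simpa using hy2⟩, ?_⟩
    apply T.injective
    simpa using h

lemma sig_grow (D : ℕ) : Grow (sig (D + 1)) (6 * 2 ^ D) D := by
  intro x r hr
  have hp := prob_sig (d := D + 1) (by omega)
  rcases le_or_gt 1 r with h1 | h1
  · refine prob_le_one.trans ?_
    rw [← ENNReal.ofReal_one]
    apply ENNReal.ofReal_le_ofReal
    have h2 : (1 : ℝ) ≤ 2 ^ D := one_le_pow₀ (by norm_num)
    have h3 : (1 : ℝ) ≤ r ^ D := one_le_pow₀ h1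
    nlinarith
  rw [sig_apply (by omega) measurableSet_ball]
  set n := ⌈2 / r⌉₊ with hn
  have hn1 : 2 / r ≤ n := Nat.le_ceil _
  have hn2 : (n : ℝ) ≤ 3 / r := by
    have h2 : (n : ℝ) < 2 / r + 1 := Nat.ceil_lt_add_one (by positivity)
    have h3 : 1 ≤ 1 / r := by rw [le_div_iff₀ hr]; linarith
    have h4 : 3 / r = 2 / r + 1 / r := by ring
    linarith
  have hn0 : (0 : ℝ) < n := lt_of_lt_of_le (by positivity) hn1
  have hsub : Set.Ioo (0 : ℝ) 1 • (ball x r ∩ sphere (0 : E (D + 1)) 1) ⊆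
      ⋃ i ∈ Finset.range n, ball (((i : ℝ) / n) • x) (2 * r) := by
    rintro _ ⟨t, ht, y, ⟨hy1, hy2⟩, rfl⟩
    rw [mem_ball, dist_eq_norm] at hy1
    rw [mem_sphere_zero_iff_norm] at hy2
    simp only [Set.mem_iUnion]
    have ht0 : 0 ≤ t * n := by have := ht.1; positivity
    refine ⟨⌊t * n⌋₊, ?_, ?_⟩
    · rw [Finset.mem_range, Nat.floor_lt ht0]
      nlinarith [ht.2]
    · rw [mem_ball, dist_eq_norm]
      have hx : ‖x‖ ≤ 2 := by
        calc ‖x‖ = ‖y - (y - x)‖ := by simp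
          _ ≤ ‖y‖ + ‖y - x‖ := norm_sub_le _ _
          _ ≤ 2 := by linarith
      have h2 := Nat.floor_le ht0
      have h3 := Nat.lt_floor_add_one (t * n)
      have h4 : |t - (⌊t * n⌋₊ : ℝ) / n| ≤ 1 / n := by
        have : t - (⌊t * n⌋₊ : ℝ) / n = (t * n - ⌊t * n⌋₊) / n := by field_simp
        rw [this, abs_div, abs_of_pos hn0]
        gcongr
        rw [abs_le]; constructor <;> linarith
      have h5 : 1 / (n : ℝ) * 2 ≤ r := by
        rw [div_le_iff₀ hr] at hn1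
        rw [div_mul_eq_mul_div, div_le_iff₀ hn0]; linarith
      calc ‖t • y - ((⌊t * n⌋₊ : ℝ) / n) • x‖
          = ‖t • (y - x) + (t - (⌊t * n⌋₊ : ℝ) / n) • x‖ := by
            congr 1; rw [smul_sub, sub_smul]; abel
        _ ≤ ‖t • (y - x)‖ + ‖(t - (⌊t * n⌋₊ : ℝ) / n) • x‖ := norm_add_le _ _
        _ = t * ‖y - x‖ + |t - (⌊t * n⌋₊ : ℝ) / n| * ‖x‖ := by
            rw [norm_smul, norm_smul, Real.norm_eq_abs, Real.norm_eq_abs, abs_of_pos ht.1]
        _ ≤ 1 * ‖y - x‖ + 1 / n * 2 := by gcongr; exact ht.2.le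
        _ < 2 * r := by linarith
  have h2 : volume (Set.Ioo (0 : ℝ) 1 • (ball x r ∩ sphere (0 : E (D + 1)) 1)) ≤
      ENNReal.ofReal (6 * 2 ^ D * r ^ D) * volume (ball (0 : E (D + 1)) 1) := by
    refine (measure_mono hsub).trans ((measure_biUnion_finset_le _ _).trans ?_)
    have h3 : ∀ i ∈ Finset.range n, volume (ball (((i : ℝ) / n) • x) (2 * r)) =
        ENNReal.ofReal ((2 * r) ^ (D + 1)) * volume (ball (0 : E (D + 1)) 1) := by
      intro i _
      rw [Measure.addHaar_ball_of_pos _ _ (by positivity)]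
      simp
    rw [Finset.sum_congr rfl h3, Finset.sum_const, Finset.card_range, nsmul_eq_mul, ← mul_assoc]
    gcongr
    rw [← ENNReal.ofReal_natCast, ← ENNReal.ofReal_mul (by positivity)]
    apply ENNReal.ofReal_le_ofReal
    calc (n : ℝ) * (2 * r) ^ (D + 1) ≤ 3 / r * (2 * r) ^ (D + 1) := by gcongr
      _ = _ := by rw [pow_succ, mul_pow]; field_simp; norm_num
  calc _ ≤ (volume (ball (0 : E (D + 1)) 1))⁻¹ *
        (ENNReal.ofReal (6 * 2 ^ D * r ^ D) * volume (ball (0 : E (D + 1)) 1)) := by gcongr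
    _ = _ := by
        rw [mul_left_comm, ENNReal.inv_mul_cancel (vol_ball_ne _).1 (vol_ball_ne _).2, mul_one]

lemma reflect_bound {D q : ℕ} (hD : 4 * q ≤ D) (hq : 15 ≤ q) (V : Submodule ℝ (E (D + 1)))
    (hV : Module.finrank ℝ V ≤ q) {A : Set (E (D + 1))} (hA : MeasurableSet A)
    (h : ∀ θ ∈ A, V.reflection θ ∈ A → ‖θ - V.reflection θ‖ ≤ 1 / 5) :
    sig (D + 1) A ≤ ENNReal.ofReal (5 / 8) := by
  have hp := prob_sig (d := D + 1) (by omega)
  have hA' : MeasurableSet (V.reflection ⁻¹' A) := V.reflection.continuous.measurable hA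
  have h1 := measure_union_add_inter (μ := sig (D + 1)) A hA'
  rw [sig_reflect (by omega) _ hA] at h1
  have h2 : A ∩ V.reflection ⁻¹' A ⊆ tube V 0 (1 / 9) := by
    rintro θ ⟨h1, h2⟩
    refine ⟨V.starProjection θ, V.starProjection_apply_mem θ, ?_⟩
    have h3 := h θ h1 h2
    rw [Submodule.reflection_apply] at h3
    have h4 : θ - (2 • V.starProjection θ - θ) = (2 : ℝ) • (θ - 0 - V.starProjection θ) := by
      rw [two_smul, two_smul]; abel
    rw [h4, norm_smul] at h3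
    simp only [Real.norm_ofNat] at h3
    linarith
  have h3 := tube_le (sig (D + 1)) 0 2 sig_supp V 0 (1 / 9) (by norm_num) (by norm_num) _
    (fun x => sig_grow D x _ (by norm_num))
  rw [← ENNReal.ofReal_mul (by positivity)] at h3
  have h4 : ((2 + 2 * (1 / 9)) / (1 / 9) : ℝ) ^ Module.finrank ℝ V *
      (6 * 2 ^ D * (2 * (1 / 9)) ^ D) ≤ 1 / 4 := by
    have h5 : ((2 + 2 * (1 / 9)) / (1 / 9) : ℝ) ^ Module.finrank ℝ V ≤ 20 ^ q := by
      rw [show ((2 + 2 * (1 / 9)) / (1 / 9) : ℝ) = 20 by norm_num]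
      exact pow_le_pow_right₀ (by norm_num) hV
    have h6 : (2 ^ D * (2 * (1 / 9)) ^ D : ℝ) ≤ ((4 / 9) ^ 4) ^ q := by
      rw [← mul_pow, ← pow_mul, show (2 * (2 * (1 / 9)) : ℝ) = 4 / 9 by norm_num]
      exact pow_le_pow_of_le_one (by norm_num) (by norm_num) hD
    have h7 : (20 * (4 / 9) ^ 4 : ℝ) ^ q ≤ (20 * (4 / 9) ^ 4) ^ 15 :=
      pow_le_pow_of_le_one (by norm_num) (by norm_num) hq
    calc _ = 6 * (((2 + 2 * (1 / 9)) / (1 / 9) : ℝ) ^ Module.finrank ℝ V *
          (2 ^ D * (2 * (1 / 9)) ^ D)) := by ring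
      _ ≤ 6 * (20 ^ q * ((4 / 9) ^ 4) ^ q) := by gcongr
      _ ≤ 6 * (20 * (4 / 9) ^ 4) ^ 15 := by rw [← mul_pow]; gcongr
      _ ≤ 1 / 4 := by norm_num
  have h5 : sig (D + 1) A + sig (D + 1) A ≤ 1 + ENNReal.ofReal (1 / 4) := by
    rw [← h1]
    exact add_le_add prob_le_one
      ((measure_mono h2).trans (h3.trans (ENNReal.ofReal_le_ofReal h4)))
  rw [← ofReal_measureReal (μ := sig (D + 1)) (s := A), ← ENNReal.ofReal_one,
    ← ENNReal.ofReal_add (by positivity) (by positivity),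
    ← ENNReal.ofReal_add (by positivity) (by positivity),
    ENNReal.ofReal_le_ofReal_iff (by positivity)] at h5
  rw [← ofReal_measureReal (μ := sig (D + 1)) (s := A)]
  apply ENNReal.ofReal_le_ofReal
  linarith

/-- success region of an output vector -/
def good {d : ℕ} (ε : ℝ) (o : E d) : Set (E d) := {θ | ‖θ‖ = 1 ∧ Real.arccos ⟪o, θ⟫ ≤ ε}

lemma measurableSet_good {d : ℕ} (ε : ℝ) (o : E d) : MeasurableSet (good ε o) :=
  (measurableSet_eq_fun measurable_norm measurable_const).inter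
    (measurableSet_le (Real.continuous_arccos.measurable.comp (by fun_prop)) measurable_const)

lemma norm_sub_le_of_good {d : ℕ} {ε : ℝ} {o θ : E d} (ho : ‖o‖ = 1) (h : θ ∈ good ε o) :
    ‖θ - o‖ ≤ ε := by
  obtain ⟨h1, h2⟩ := h
  have h3 : |⟪o, θ⟫| ≤ 1 := by simpa [ho, h1] using abs_real_inner_le_norm o θ
  have h4 := Real.cos_arccos (abs_le.1 h3).1 (abs_le.1 h3).2
  have h5 := Real.one_sub_sq_div_two_le_cos (x := Real.arccos ⟪o, θ⟫)
  have h6 := Real.arccos_nonneg ⟪o, θ⟫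
  have h7 : ‖θ - o‖ ^ 2 = 2 - 2 * ⟪o, θ⟫ := by
    rw [norm_sub_sq_real, h1, ho, real_inner_comm]; ring
  have h8 : ‖θ - o‖ ^ 2 ≤ ε ^ 2 := by nlinarith
  exact (pow_le_pow_iff_left₀ (norm_nonneg _) (h6.trans h2) two_ne_zero).1 h8

end Crest.Agent.R322
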