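import Crest.Agent.R322.Guess

set_option autoImplicit false

namespace Crest.Agent.R322

open MeasureTheory ProbabilityTheory Metric
open scoped ENNReal NNReal RealInnerProductSpace

lemma measurable_foldl {S Z ι : Type*} [MeasurableSpace S] [Countable S]
    [MeasurableSingletonClass S] [MeasurableSpace Z] (h : ι → S → Z → S)
    (hh : ∀ t s, Measurable (h t s)) (l : List ι) :
    ∀ s₀ : Z → S, Measurable s₀ → Measurable fun z => l.foldl (fun s t => h t s z) (s₀ z) := by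
  induction l with
  | nil => intro s₀ hs; simpa using hs
  | cons t l ih =>
    intro s₀ hs
    simp only [List.foldl_cons]
    apply ih
    have : Measurable fun p : S × Z => h t p.1 p.2 :=
      measurable_from_prod_countable_right fun s => hh t s
    exact this.comp (hs.prodMk measurable_id)

variable {E : Type*} [NormedAddCommGroup E] [InnerProductSpace ℝ E] [FiniteDimensional ℝ E]
  [MeasurableSpace E] [BorelSpace E]
variable {S : Type*}

/-- the state after `k` samples read from time `t₀` on -/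
def run (f : ℕ → S → E → ℝ → S) (t₀ k : ℕ) (s : S) (z : (Fin k → E) × (Fin k → ℝ)) : S :=
  (List.finRange k).foldl (fun s (t : Fin k) => f (t₀ + t.val) s (z.1 t) (z.2 t)) s

omit [NormedAddCommGroup E] [InnerProductSpace ℝ E] [FiniteDimensional ℝ E]
  [MeasurableSpace E] [BorelSpace E] in
lemma run_succ (f : ℕ → S → E → ℝ → S) (t₀ k : ℕ) (s : S)
    (z : (Fin (k + 1) → E) × (Fin (k + 1) → ℝ)) :
    run f t₀ (k + 1) s z =
      run f (t₀ + 1) k (f t₀ s (z.1 0) (z.2 0)) (fun i => z.1 i.succ, fun i => z.2 i.succ) := by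
  simp only [run, List.finRange_succ, List.foldl_cons, List.foldl_map, Fin.val_zero, add_zero,
    Fin.val_succ]
  congr 1
  ext s t
  congr 1
  omega

omit [NormedAddCommGroup E] [InnerProductSpace ℝ E] [FiniteDimensional ℝ E]
  [MeasurableSpace E] [BorelSpace E] in
lemma run_mem (f : ℕ → S → E → ℝ → S) (R : Finset S)
    (hR : ∀ t, ∀ s ∈ R, ∀ x y, f t s x y ∈ R) (k : ℕ) :
    ∀ t₀, ∀ s ∈ R, ∀ z, run f t₀ k s z ∈ R := by
  induction k with
  | zero => intro t₀ s hs z; simpa [run] using hs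
  | succ k ih => intro t₀ s hs z; rw [run_succ]; exact ih _ _ (hR _ _ hs _ _) _

variable [MeasurableSpace S] [Countable S] [DiscreteMeasurableSpace S]

omit [NormedAddCommGroup E] [InnerProductSpace ℝ E] [FiniteDimensional ℝ E] [BorelSpace E] in
lemma measurable_run {f : ℕ → S → E → ℝ → S}
    (hf : ∀ t s, Measurable fun p : E × ℝ => f t s p.1 p.2) (t₀ k : ℕ) (s : S) :
    Measurable (run f t₀ k s) := by
  apply measurable_foldl (fun (t : Fin k) s (z : (Fin k → E) × (Fin k → ℝ)) =>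
    f (t₀ + t) s (z.1 t) (z.2 t)) _ _ (fun _ => s) measurable_const
  intro t s
  exact (hf (t₀ + t) s).comp (f := fun z : (Fin k → E) × (Fin k → ℝ) => (z.1 t, z.2 t))
    (by fun_prop)

/-- expected terminal payoff -/
noncomputable def U (f : ℕ → S → E → ℝ → S) (g : S → E → ℝ≥0∞) (t₀ k : ℕ) (s : S) (θ : E) :
    ℝ≥0∞ := ∫⁻ X, g (run f t₀ k s (obs X θ)) θ ∂gpi E k

lemma measurable_run_obs {f : ℕ → S → E → ℝ → S}
    (hf : ∀ t s, Measurable fun p : E × ℝ => f t s p.1 p.2) (t₀ k : ℕ) (s : S) :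
    Measurable fun p : (Fin k → E) × E => run f t₀ k s (obs p.1 p.2) :=
  (measurable_run hf t₀ k s).comp measurable_obs

omit [MeasurableSpace S] [Countable S] [DiscreteMeasurableSpace S] in
lemma U_zero (f : ℕ → S → E → ℝ → S) (g : S → E → ℝ≥0∞) (t₀ : ℕ) (s : S) (θ : E) :
    U f g t₀ 0 s θ = g s θ := by
  simp [U, run]

lemma U_succ {f : ℕ → S → E → ℝ → S}
    (hf : ∀ t s, Measurable fun p : E × ℝ => f t s p.1 p.2) (g : S → E → ℝ≥0∞) (t₀ k : ℕ)
    (s : S) (θ : E) :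
    U f g t₀ (k + 1) s θ = ∫⁻ x, U f g (t₀ + 1) k (f t₀ s x ⟪x, θ⟫) θ ∂stdGaussian E := by
  have hmp := measurePreserving_piFinSuccAbove (fun _ : Fin (k + 1) => stdGaussian E) 0
  have hm : Measurable fun X : Fin (k + 1) → E => g (run f t₀ (k + 1) s (obs X θ)) θ :=
    (Measurable.of_discrete (f := fun m => g m θ)).comp
      ((measurable_run_obs hf t₀ (k + 1) s).comp (f := fun X => (X, θ)) (by fun_prop))
  have hm2 : Measurable fun a : E × (Fin k → E) => g (run f t₀ (k + 1) s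
      (obs ((MeasurableEquiv.piFinSuccAbove (fun _ : Fin (k + 1) => E) 0).symm a) θ)) θ :=
    hm.comp (MeasurableEquiv.measurable _)
  rw [U, ← hmp.symm.lintegral_comp hm, lintegral_prod _ hm2.aemeasurable]
  congr 1
  ext x
  rw [U]
  congr 1
  ext X
  rw [run_succ]
  simp [obs, MeasurableEquiv.piFinSuccAbove, Fin.insertNthEquiv]

lemma U_add {f : ℕ → S → E → ℝ → S}
    (hf : ∀ t s, Measurable fun p : E × ℝ => f t s p.1 p.2) (g : S → E → ℝ≥0∞) (ℓ k : ℕ) :
    ∀ (t₀ : ℕ) (s : S) (θ : E), U f g t₀ (k + ℓ) s θ = U f (U f g (t₀ + k) ℓ) t₀ k s θ := by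
  induction k with
  | zero => intro t₀ s θ; rw [U_zero]; simp
  | succ k ih =>
    intro t₀ s θ
    rw [show k + 1 + ℓ = (k + ℓ) + 1 by omega, U_succ hf, U_succ hf]
    congr 1
    ext x
    rw [ih, show t₀ + 1 + k = t₀ + (k + 1) by omega]

lemma U_id {f : ℕ → S → E → ℝ → S}
    (hf : ∀ t s, Measurable fun p : E × ℝ => f t s p.1 p.2) (g : S → E → ℝ≥0∞) (T : ℕ)
    (hT : ∀ t, T ≤ t → ∀ s x y, f t s x y = s) (k : ℕ) :
    ∀ t₀, T ≤ t₀ → ∀ (s : S) (θ : E), U f g t₀ k s θ = g s θ := by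
  induction k with
  | zero => intro t₀ _ s θ; rw [U_zero]
  | succ k ih =>
    intro t₀ h s θ
    rw [U_succ hf]
    simp_rw [hT t₀ h, ih (t₀ + 1) (by omega)]
    simp

lemma U_pad {f : ℕ → S → E → ℝ → S}
    (hf : ∀ t s, Measurable fun p : E × ℝ => f t s p.1 p.2) (g : S → E → ℝ≥0∞) (T : ℕ)
    (hT : ∀ t, T ≤ t → ∀ s x y, f t s x y = s) (n : ℕ) (hn : T ≤ n) (s : S) (θ : E) :
    U f g 0 n s θ = U f g 0 T s θ := by
  obtain ⟨e, rfl⟩ := Nat.exists_eq_add_of_le hn
  rw [U_add hf]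
  congr 1
  ext s θ
  exact U_id hf g T hT e _ (by omega) s θ

/-- transition probabilities -/
noncomputable def phi (f : ℕ → S → E → ℝ → S) (t₀ k : ℕ) (s m : S) (θ : E) : ℝ≥0∞ :=
  gpi E k {X | run f t₀ k s (obs X θ) = m}

lemma measurable_phi {f : ℕ → S → E → ℝ → S}
    (hf : ∀ t s, Measurable fun p : E × ℝ => f t s p.1 p.2) (t₀ k : ℕ) (s m : S) :
    Measurable (phi f t₀ k s m) :=
  measurable_measure_prodMk_right (μ := gpi E k)
    ((measurable_run_obs hf t₀ k s) (measurableSet_singleton m))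

lemma U_eq_sum {f : ℕ → S → E → ℝ → S}
    (hf : ∀ t s, Measurable fun p : E × ℝ => f t s p.1 p.2) (R : Finset S)
    (hR : ∀ t, ∀ s ∈ R, ∀ x y, f t s x y ∈ R) (g : S → E → ℝ≥0∞) (t₀ k : ℕ) (s : S)
    (hs : s ∈ R) (θ : E) :
    U f g t₀ k s θ = ∑ m ∈ R, phi f t₀ k s m θ * g m θ := by
  classical
  have hm : ∀ m, MeasurableSet {X : Fin k → E | run f t₀ k s (obs X θ) = m} := fun m =>
    ((measurable_run_obs hf t₀ k s).comp (f := fun X => (X, θ)) (by fun_prop))
      (measurableSet_singleton m)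
  have h1 : ∀ X, g (run f t₀ k s (obs X θ)) θ =
      ∑ m ∈ R, {X | run f t₀ k s (obs X θ) = m}.indicator (fun _ => g m θ) X := by
    intro X
    rw [Finset.sum_eq_single (run f t₀ k s (obs X θ))]
    · simp
    · intro m _ hne
      rw [Set.indicator_of_notMem]
      exact fun h => hne h.symm
    · intro h; exact absurd (run_mem f R hR k t₀ s hs _) h
  rw [U]
  simp_rw [h1]
  rw [lintegral_finsetSum _ fun m _ => measurable_const.indicator (hm m)]
  apply Finset.sum_congr rfl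
  intro m _
  rw [lintegral_indicator_const (hm m), mul_comm, phi]

lemma sum_phi {f : ℕ → S → E → ℝ → S}
    (hf : ∀ t s, Measurable fun p : E × ℝ => f t s p.1 p.2) (R : Finset S)
    (hR : ∀ t, ∀ s ∈ R, ∀ x y, f t s x y ∈ R) (t₀ k : ℕ) (s : S)
    (hs : s ∈ R) (θ : E) : ∑ m ∈ R, phi f t₀ k s m θ = 1 := by
  have := U_eq_sum hf R hR (fun _ _ => 1) t₀ k s hs θ
  simpa [U] using this.symm

lemma measurable_U {f : ℕ → S → E → ℝ → S}
    (hf : ∀ t s, Measurable fun p : E × ℝ => f t s p.1 p.2) (R : Finset S)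
    (hR : ∀ t, ∀ s ∈ R, ∀ x y, f t s x y ∈ R) (g : S → E → ℝ≥0∞) (hg : ∀ m, Measurable (g m))
    (t₀ k : ℕ) (s : S) (hs : s ∈ R) : Measurable (U f g t₀ k s) := by
  have : U f g t₀ k s = fun θ => ∑ m ∈ R, phi f t₀ k s m θ * g m θ := by
    ext θ; exact U_eq_sum hf R hR g t₀ k s hs θ
  rw [this]
  exact Finset.measurable_sum _ fun m _ => (measurable_phi hf t₀ k s m).mul (hg m)

omit [MeasurableSpace S] [Countable S] [DiscreteMeasurableSpace S] in
lemma U_le_one (f : ℕ → S → E → ℝ → S) (g : S → E → ℝ≥0∞) (hg : ∀ m θ, g m θ ≤ 1)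
    (t₀ k : ℕ) (s : S) (θ : E) : U f g t₀ k s θ ≤ 1 := by
  calc U f g t₀ k s θ ≤ ∫⁻ _, 1 ∂gpi E k := lintegral_mono fun X => hg _ _
    _ = 1 := by simp

end Crest.Agent.R322
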