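import Crest.Agent.R322.Gauss

set_option autoImplicit false

namespace Crest.Agent.R322

open MeasureTheory ProbabilityTheory Metric
open scoped ENNReal NNReal RealInnerProductSpace

variable {E : Type*} [NormedAddCommGroup E] [InnerProductSpace ℝ E] [FiniteDimensional ℝ E]
  [MeasurableSpace E] [BorelSpace E]

/-- the open `ρ`-neighbourhood of the affine subspace `θ₀ + V` -/
def tube (V : Submodule ℝ E) (θ₀ : E) (ρ : ℝ) : Set E := {a | ∃ w ∈ V, ‖a - θ₀ - w‖ < ρ}

omit [FiniteDimensional ℝ E] [MeasurableSpace E] [BorelSpace E] in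
lemma isOpen_tube (V : Submodule ℝ E) (θ₀ : E) (ρ : ℝ) : IsOpen (tube V θ₀ ρ) := by
  have : tube V θ₀ ρ = ⋃ w ∈ V, {a | ‖a - θ₀ - w‖ < ρ} := by
    ext a; simp [tube]
  rw [this]
  exact isOpen_biUnion fun w _ => isOpen_lt (by fun_prop) continuous_const

/-- tube estimate from a uniform bound on the measure of balls -/
lemma tube_le (μ : Measure E) [IsFiniteMeasure μ] (x₁ : E) (r₁ : ℝ)
    (hs : μ (ball x₁ r₁)ᶜ = 0) (V : Submodule ℝ E) (θ₀ : E) (ρ : ℝ) (hρ : 0 < ρ)
    (hr₁ : 0 < r₁) (c : ℝ≥0∞) (hc : ∀ x, μ (ball x (2 * ρ)) ≤ c) :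
    μ (tube V θ₀ ρ) ≤ ENNReal.ofReal (((r₁ + 2 * ρ) / ρ) ^ Module.finrank ℝ V) * c := by
  set lam : Measure V := Measure.addHaar with hlam
  set n := Module.finrank ℝ V
  set w₀ : V := V.orthogonalProjectionOnto (x₁ - θ₀)
  set S : Set (E × V) := {p | p.2 ∈ ball w₀ (r₁ + 2 * ρ) ∧ ‖p.1 - θ₀ - p.2‖ < 2 * ρ} with hS
  have hSm : MeasurableSet S := by
    apply IsOpen.measurableSet
    have h1 : IsOpen {p : E × V | p.2 ∈ ball w₀ (r₁ + 2 * ρ)} :=
      isOpen_ball.preimage continuous_snd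
    have h2 : IsOpen {p : E × V | ‖p.1 - θ₀ - p.2‖ < 2 * ρ} :=
      isOpen_lt (by fun_prop) continuous_const
    exact h1.inter h2
  have hb0 : lam (ball 0 1) ≠ 0 := (measure_ball_pos lam _ one_pos).ne'
  have hbt : lam (ball 0 1) ≠ ⊤ := measure_ball_lt_top.ne
  have h1 : ENNReal.ofReal (ρ ^ n) * lam (ball 0 1) * μ (tube V θ₀ ρ) ≤ (μ.prod lam) S := by
    rw [Measure.prod_apply hSm]
    have hT : μ (tube V θ₀ ρ) = μ (tube V θ₀ ρ ∩ ball x₁ r₁) := by
      rw [measure_inter_conull' ]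
      exact measure_mono_null (fun a ha => ha.2) hs
    rw [hT, ← lintegral_indicator_const ((isOpen_tube V θ₀ ρ).inter isOpen_ball).measurableSet]
    apply lintegral_mono
    intro a
    by_cases ha : a ∈ tube V θ₀ ρ ∩ ball x₁ r₁
    · simp only [Set.indicator_of_mem ha]
      obtain ⟨⟨w, hwV, hw⟩, ha2⟩ := ha
      rw [← Measure.addHaar_ball_of_pos lam (⟨w, hwV⟩ : V) hρ]
      apply measure_mono
      intro z hz
      rw [mem_ball, dist_eq_norm] at hz ha2
      have hz' : ‖(z : E) - w‖ < ρ := by simpa using hz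
      have h2 : ‖a - θ₀ - z‖ < 2 * ρ := by
        calc ‖a - θ₀ - z‖ = ‖(a - θ₀ - w) - ((z : E) - w)‖ := by congr 1; abel
          _ ≤ ‖a - θ₀ - w‖ + ‖(z : E) - w‖ := norm_sub_le _ _
          _ < 2 * ρ := by linarith
      refine ⟨?_, h2⟩
      rw [mem_ball, dist_eq_norm]
      have h3 : z - w₀ = V.orthogonalProjectionOnto ((z : E) - (x₁ - θ₀)) := by
        rw [map_sub, Submodule.orthogonalProjectionOnto_mem_subspace_eq_self]
      rw [h3]
      calc ‖V.orthogonalProjectionOnto ((z : E) - (x₁ - θ₀))‖ ≤ ‖(z : E) - (x₁ - θ₀)‖ :=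
            V.norm_orthogonalProjectionOnto_apply_le _
        _ = ‖(a - x₁) - (a - θ₀ - z)‖ := by congr 1; abel
        _ ≤ ‖a - x₁‖ + ‖a - θ₀ - z‖ := norm_sub_le _ _
        _ < r₁ + 2 * ρ := by linarith
    · simp [Set.indicator_of_notMem ha]
  have h2 : (μ.prod lam) S ≤ ENNReal.ofReal ((r₁ + 2 * ρ) ^ n) * lam (ball 0 1) * c := by
    rw [Measure.prod_apply_symm hSm, ← Measure.addHaar_ball_of_pos lam w₀ (by positivity),
      mul_comm, ← lintegral_indicator_const measurableSet_ball]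
    apply lintegral_mono
    intro z
    by_cases hz : z ∈ ball w₀ (r₁ + 2 * ρ)
    · simp only [Set.indicator_of_mem hz]
      refine le_trans (measure_mono ?_) (hc (θ₀ + z))
      intro a ha
      rw [mem_ball, dist_eq_norm]
      have := ha.2
      simpa [sub_sub] using this
    · simp only [Set.indicator_of_notMem hz]
      have : (fun x => (x, z)) ⁻¹' S = ∅ := by
        ext a
        simp only [Set.mem_preimage, Set.mem_empty_iff_false, iff_false]
        exact fun h => hz h.1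
      rw [this]; simp
  have h3 := h1.trans h2
  have hρn : ENNReal.ofReal (ρ ^ n) ≠ 0 := by simp; positivity
  have h4 : ENNReal.ofReal ((r₁ + 2 * ρ) ^ n) =
      ENNReal.ofReal (ρ ^ n) * ENNReal.ofReal (((r₁ + 2 * ρ) / ρ) ^ n) := by
    rw [← ENNReal.ofReal_mul (by positivity), ← mul_pow]
    congr 2
    field_simp
  rw [h4] at h3
  have h5 : ENNReal.ofReal (ρ ^ n) * lam (ball 0 1) * μ (tube V θ₀ ρ) ≤
      ENNReal.ofReal (ρ ^ n) * lam (ball 0 1) *
        (ENNReal.ofReal (((r₁ + 2 * ρ) / ρ) ^ n) * c) := by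
    refine h3.trans (le_of_eq ?_); ring
  exact (ENNReal.mul_le_mul_iff_right (mul_ne_zero hρn hb0)
    (ENNReal.mul_ne_top ENNReal.ofReal_ne_top hbt)).1 h5

/-- Frostman condition relative to the ball `ball x₁ r₁`, exponent `3 q`. -/
structure Frost (μ : Measure E) (x₁ : E) (r₁ : ℝ) (q : ℕ) : Prop where
  pos : 0 < r₁
  supp : μ (ball x₁ r₁)ᶜ = 0
  ball_le : ∀ x ρ, 0 < ρ → μ (ball x ρ) ≤ ENNReal.ofReal (2 * (ρ / r₁) ^ (3 * q))

lemma Frost.tube_le {μ : Measure E} [IsFiniteMeasure μ] {x₁ : E} {r₁ : ℝ} {q : ℕ}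
    (h : Frost μ x₁ r₁ q) (V : Submodule ℝ E) (hV : Module.finrank ℝ V ≤ q) (θ₀ : E) (τ : ℝ)
    (hτ : 0 < τ) (hτ1 : τ ≤ 1) :
    μ (tube V θ₀ (τ * r₁)) ≤ ENNReal.ofReal (2 * (24 * τ ^ 2) ^ q) := by
  have hr := h.pos
  refine (Crest.Agent.R322.tube_le μ x₁ r₁ h.supp V θ₀ (τ * r₁) (by positivity) hr _
    (fun x => h.ball_le x _ (by positivity))).trans ?_
  rw [← ENNReal.ofReal_mul (by positivity)]
  apply ENNReal.ofReal_le_ofReal
  have h1 : (r₁ + 2 * (τ * r₁)) / (τ * r₁) ≤ 3 / τ := by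
    rw [div_le_div_iff₀ (by positivity) hτ]
    have : 0 ≤ r₁ * τ * (1 - τ) := by
      have : 0 ≤ 1 - τ := by linarith
      positivity
    nlinarith
  have h2 : 1 ≤ 3 / τ := by rw [le_div_iff₀ hτ]; linarith
  have h3 : ((r₁ + 2 * (τ * r₁)) / (τ * r₁)) ^ Module.finrank ℝ V ≤ (3 / τ) ^ q :=
    (pow_le_pow_left₀ (by positivity) h1 _).trans (pow_le_pow_right₀ h2 hV)
  have h4 : 2 * (τ * r₁) / r₁ = 2 * τ := by field_simp
  rw [h4]
  calc _ ≤ (3 / τ) ^ q * (2 * (2 * τ) ^ (3 * q)) := by gcongr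
    _ = 2 * (24 * τ ^ 2) ^ q := by
      rw [pow_mul, mul_left_comm, ← mul_pow]
      congr 2
      field_simp
      norm_num

/-- one more point on the common slice costs the factor `β = (240 τ η / r₁)^q` -/
lemma Frost.slab_integral {μ : Measure E} [IsFiniteMeasure μ] {x₁ : E} {r₁ : ℝ} {q : ℕ}
    (h : Frost μ x₁ r₁ q) (hq : 1 ≤ q) (V : Submodule ℝ E) (hV : Module.finrank ℝ V ≤ q)
    (θ₀ : E) (τ : ℝ) (hτ : 0 < τ) (hτ1 : τ ≤ 1) (G : Set E)
    (hG : μ G ≤ ENNReal.ofReal (τ ^ (2 * q))) (A : Set E) (hA : MeasurableSet A) (hc : Cyl V A)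
    (η : ℝ) (hη : 0 < η) :
    ∫⁻ a in G, stdGaussian E (A ∩ {x | |⟪x, a - θ₀⟫| ≤ η}) ^ q ∂μ ≤
      stdGaussian E A ^ q * ENNReal.ofReal ((240 * τ * η / r₁) ^ q) := by
  have hr := h.pos
  set T : ℕ → Set E := fun j => tube V θ₀ (τ / 2 ^ j * r₁) with hT
  have hTm : ∀ j, MeasurableSet (T j) := fun j => (isOpen_tube _ _ _).measurableSet
  set c : ℕ → ℝ≥0∞ := fun j => ENNReal.ofReal ((η / (τ / 2 ^ j * r₁)) ^ q) with hcdef
  have key : ∀ a j, a ∉ T j → stdGaussian E (A ∩ {x | |⟪x, a - θ₀⟫| ≤ η}) ^ q ≤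
      stdGaussian E A ^ q * c j := by
    intro a j ha
    have := slab_le V A hA hc (a - θ₀) η (τ / 2 ^ j * r₁) hη.le (by positivity) (by
      intro w hw
      by_contra hlt
      exact ha ⟨w, hw, not_le.1 hlt⟩)
    calc _ ≤ (stdGaussian E A * ENNReal.ofReal (η / (τ / 2 ^ j * r₁))) ^ q := by gcongr
      _ = _ := by rw [mul_pow, hcdef, ← ENNReal.ofReal_pow (by positivity)]
  have hpt : ∀ a, stdGaussian E (A ∩ {x | |⟪x, a - θ₀⟫| ≤ η}) ^ q ≤
      stdGaussian E A ^ q * (c 0 + ∑' j, (T j).indicator (fun _ => c (j + 1)) a) := by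
    intro a
    by_cases h0 : a ∈ T 0
    · by_cases hall : ∀ j, a ∈ T j
      · obtain ⟨j, hj⟩ := pow_unbounded_of_one_lt (τ * r₁ / η) (one_lt_two (α := ℝ))
        have h1 : 1 ≤ c (j + 1) := by
          simp only [hcdef]
          rw [← ENNReal.ofReal_one]
          apply ENNReal.ofReal_le_ofReal
          apply one_le_pow₀
          rw [le_div_iff₀ (by positivity), one_mul, div_mul_eq_mul_div,
            div_le_iff₀ (by positivity)]
          rw [div_lt_iff₀ hη] at hj
          have : (0 : ℝ) < 2 ^ j * η := by positivity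
          rw [pow_succ]; nlinarith
        calc _ ≤ stdGaussian E A ^ q * 1 := by
              rw [mul_one]; gcongr; exact Set.inter_subset_left
          _ ≤ _ := by
              gcongr
              refine le_trans ?_ le_add_self
              refine le_trans ?_ (ENNReal.le_tsum j)
              rw [Set.indicator_of_mem (hall j)]; exact h1
      · push Not at hall
        classical
        have hne : Nat.find hall ≠ 0 := by
          intro h'
          have := Nat.find_spec hall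
          rw [h'] at this; exact this h0
        obtain ⟨j, hj⟩ := Nat.exists_eq_succ_of_ne_zero hne
        have h1 : a ∉ T (j + 1) := by
          have := Nat.find_spec hall
          rwa [hj] at this
        have h2 : a ∈ T j := by
          by_contra h'
          have := Nat.find_min' hall h'
          omega
        refine (key a _ h1).trans ?_
        gcongr
        refine le_trans ?_ le_add_self
        refine le_trans ?_ (ENNReal.le_tsum j)
        rw [Set.indicator_of_mem h2]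
    · refine (key a 0 h0).trans ?_
      gcongr
      exact le_self_add
  have hterm : ∀ j, c (j + 1) * μ (T j) ≤
      ENNReal.ofReal (2 * (48 * τ * η / r₁) ^ q) * (2⁻¹ : ℝ≥0∞) ^ j := by
    intro j
    have h2j : (1 : ℝ) ≤ 2 ^ j := one_le_pow₀ (by norm_num)
    have h1 := h.tube_le V hV θ₀ (τ / 2 ^ j) (by positivity)
      (by rw [div_le_one (by positivity)]; linarith)
    calc c (j + 1) * μ (T j) ≤ c (j + 1) * ENNReal.ofReal (2 * (24 * (τ / 2 ^ j) ^ 2) ^ q) := by
          gcongr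
      _ = ENNReal.ofReal (2 * (48 * τ * η / r₁) ^ q * ((2⁻¹ : ℝ) ^ j) ^ q) := by
          simp only [hcdef]
          rw [← ENNReal.ofReal_mul (by positivity)]
          congr 1
          rw [mul_left_comm, ← mul_pow, mul_assoc 2, ← mul_pow]
          congr 2
          rw [inv_pow, pow_succ]
          field_simp
          norm_num
      _ ≤ ENNReal.ofReal (2 * (48 * τ * η / r₁) ^ q * (2⁻¹ : ℝ) ^ j) := by
          apply ENNReal.ofReal_le_ofReal
          gcongr
          exact pow_le_of_le_one (by positivity) (pow_le_one₀ (by norm_num) (by norm_num))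
            (by omega)
      _ = _ := by
          rw [ENNReal.ofReal_mul (by positivity), ENNReal.ofReal_pow (by norm_num),
            ENNReal.ofReal_inv_of_pos (by norm_num)]
          simp
  calc ∫⁻ a in G, stdGaussian E (A ∩ {x | |⟪x, a - θ₀⟫| ≤ η}) ^ q ∂μ
      ≤ ∫⁻ a in G, stdGaussian E A ^ q *
          (c 0 + ∑' j, (T j).indicator (fun _ => c (j + 1)) a) ∂μ := lintegral_mono hpt
    _ = stdGaussian E A ^ q * (c 0 * μ G +
          ∑' j, ∫⁻ a in G, (T j).indicator (fun _ => c (j + 1)) a ∂μ) := by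
        rw [lintegral_const_mul' _ _ (ENNReal.pow_ne_top (measure_ne_top _ _)),
          lintegral_add_left measurable_const, lintegral_tsum
            (fun j => (measurable_const.indicator (hTm j)).aemeasurable)]
        simp
    _ ≤ stdGaussian E A ^ q * (c 0 * ENNReal.ofReal (τ ^ (2 * q)) +
          ∑' j, ENNReal.ofReal (2 * (48 * τ * η / r₁) ^ q) * (2⁻¹ : ℝ≥0∞) ^ j) := by
        gcongr with j
        refine le_trans ?_ (hterm j)
        rw [lintegral_indicator_const (hTm j)]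
        gcongr
        exact Measure.restrict_le_self
    _ ≤ _ := by
        gcongr
        rw [ENNReal.tsum_mul_left, ENNReal.tsum_geometric]
        have h2 : (1 - 2⁻¹ : ℝ≥0∞)⁻¹ = ENNReal.ofReal 2 := by
          rw [ENNReal.one_sub_inv_two]; simp
        rw [h2]
        simp only [hcdef]
        rw [← ENNReal.ofReal_mul (by positivity), ← ENNReal.ofReal_mul (by positivity),
          ← ENNReal.ofReal_add (by positivity) (by positivity)]
        apply ENNReal.ofReal_le_ofReal
        have h3 : (η / (τ / 2 ^ 0 * r₁)) ^ q * τ ^ (2 * q) = (τ * η / r₁) ^ q := by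
          rw [pow_mul, ← mul_pow]
          congr 1
          field_simp
        rw [h3]
        have h4 : (τ * η / r₁) ^ q ≤ (48 * τ * η / r₁) ^ q := by
          gcongr; nlinarith
        have h5 : (240 * τ * η / r₁) ^ q = 5 ^ q * (48 * τ * η / r₁) ^ q := by
          rw [← mul_pow]; congr 1; ring
        have h6 : (5 : ℝ) ≤ 5 ^ q := le_self_pow₀ (by norm_num) (by omega)
        have h7 : 0 ≤ (48 * τ * η / r₁) ^ q := by positivity
        rw [h5]; nlinarith

end Crest.Agent.R322
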